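import Vale.Agent.P032.H636.Pass
import Vale.Agent.P032.H961.DH
import Vale.Agent.P032.H961.DH2
import Vale.Agent.P032.H460.KApex
import Vale.Agent.P032.H169.OneArc

/-!
# P032: no K end in the NoThree world (row K, owner of the end plain-free)

`y = (ac | df)` plain-free on `a, c`, `V = (ab | cd)` at distance one, `V` without plain ends `{a, b, f}`,
at most two points with four colours on `S(y)` and on `S(V)`: impossible (`no_k_end273`).  Proof: heights
of the letters `b`, `e`, exact `df` of `S(y)` off the arc (H564), the level of `e` is passed twice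
(H636/Pass), and over each passage there is a point of `S(V)` with four colours, different from `y`.
-/

open Set Filter Topology Metric

noncomputable section

namespace Vale.Agent.P032.H273

open Vale.Agent.P032.Six Vale.Agent.P032.S5.H767 Vale.Agent.P032.H564 Vale.Agent.P032.H961
  Vale.Agent.P032.H636 Vale.Agent.P032.H460

variable {U : Fin 6 → Set ℂ} {T : ℂ → Set (Fin 6)} {V y w : ℂ} {P : ℝ → ℂ} {α : ℝ}
  {a b c d e f : Fin 6}

/-! ### The product rule at a K-neighbour -/

/-- the data of the product rule -/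
structure KD (U : Fin 6 → Set ℂ) (T : ℂ → Set (Fin 6)) (V y : ℂ) (a b c d e f : Fin 6) : Prop where
  irr : Irr U T
  dV : DPt T V a b c d
  dy : DPt T y a c d f
  nd : [a, b, c, d, e, f].Nodup
  dist : dist V y = 1

namespace KD

theorem outV (D : KD U T V y a b c d e f) : e ∉ T V ∧ f ∉ T V := free_notMem D.dV D.nd

theorem outy (D : KD U T V y a b c d e f) : b ∉ T y ∧ e ∉ T y := by
  have nd := D.nd
  rw [D.dy.pal]
  simp only [List.nodup_cons, List.mem_cons, List.not_mem_nil, or_false, not_or,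
    List.nodup_nil, and_true, not_false_eq_true] at nd
  obtain ⟨⟨hab, hac, had, hae, haf⟩, ⟨hbc, hbd, hbe, hbf⟩, ⟨hcd, hce, hcf⟩, ⟨hde, hdf⟩, hef⟩ := nd
  simp only [mem_insert_iff, mem_singleton_iff, not_or]
  exact ⟨⟨Ne.symm hab, hbc, hbd, hbf⟩, ⟨Ne.symm hae, Ne.symm hce, Ne.symm hde, hef⟩⟩

theorem dvV (_ : KD U T V y a b c d e f) (hw : Dist.dist w y = 1) :
    Dist.dist (w + V - y) V = 1 := by rw [dist_partner']; exact hw

theorem dwv (D : KD U T V y a b c d e f) : Dist.dist w (w + V - y) = 1 := by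
  rw [dist_partner]; exact D.dist

/-- a point with `e` on `S(y)`: the partner is in the closed letters `ab`, `cd`, `f` -/
theorem ovr (D : KD U T V y a b c d e f) (hw : Dist.dist w y = 1) (he : e ∈ T w) (hwV : w ≠ V) :
    w + V - y ∈ closure (Ex T V {a, b}) ∨
      (w + V - y ∈ closure (Ex T V {c, d}) ∨ f ∈ T (w + V - y)) := by
  have h := D.irr
  have C := ctr_of_dpt h D.dV D.nd
  by_contra hcon
  push Not at hcon
  obtain ⟨hA, hC, hf⟩ := hcon
  have hfy : f ∈ T y := by rw [D.dy.pal]; simp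
  refine line_free h (z := V) (y := w + V - y) (v := w) (t := e) (D.dvV hw) ?_
    (by rw [dist_comm]; exact D.dwv) hwV (fun h1 => hf ?_) (h.sub _ he)
  · filter_upwards [mem_nhdsWithin_of_mem_nhds (isClosed_closure.isOpen_compl.mem_nhds hA),
      mem_nhdsWithin_of_mem_nhds (isClosed_closure.isOpen_compl.mem_nhds hC),
      mem_nhdsWithin_of_mem_nhds (h.nhd (w + V - y)), self_mem_nhdsWithin] with q h1 h2 h3 h4
    obtain ⟨l, hl⟩ := C.cover (mem_sphere.1 h4)
    fin_cases l
    · exact hl.2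
    · exact absurd (h3 hl.2) hf
    · exact absurd hl h1
    · exact absurd hl h2
  · have e1 : w + V - y = y := by linear_combination -h1
    rw [e1]
    exact hfy

/-- `b`, `e` on `S(y)`: the partner is not in the closed `ab`-arcs -/
theorem endb (D : KD U T V y a b c d e f) (hw : Dist.dist w y = 1) (he : e ∈ T w) (hb : b ∈ T w)
    (hwV : w ≠ V) (h3w : (T w).ncard ≤ 3) (hA : w + V - y ∈ closure (Ex T V {a, b}))
    (h3 : (T (w + V - y)).ncard ≤ 3) (hf : f ∉ T (w + V - y)) : False := by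
  have h := D.irr
  have C := ctr_of_dpt h D.dV D.nd
  have nd := D.nd
  simp only [List.nodup_cons, List.mem_cons, List.not_mem_nil, or_false, not_or,
    List.nodup_nil, and_true, not_false_eq_true] at nd
  obtain ⟨⟨hab, hac, had, hae, haf⟩, ⟨hbc, hbd, hbe, hbf⟩, ⟨hcd, hce, hcf⟩, ⟨hde, hdf⟩, hef⟩ := nd
  have hsub := sub_of_closure h hA
  have ha1 : a ∈ T (w + V - y) := hsub (by simp)
  have hb1 : b ∈ T (w + V - y) := hsub (by simp)
  have hvy : w + V - y ≠ y := fun h1 => D.outy.1 (h1 ▸ hb1)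
  have hC : w + V - y ∉ closure (Ex T V {c, d}) := by
    intro hC
    have k2 := sub_of_closure h hC
    have k3 : T V ⊆ T (w + V - y) := by
      rw [D.dV.pal]
      rintro i (rfl | rfl | rfl | hi)
      · exact ha1
      · exact hb1
      · exact k2 (by simp)
      · rw [mem_singleton_iff] at hi
        subst hi
        exact k2 (by simp)
    have e1 := card_dpt D.dV
    have e2 := Set.ncard_le_ncard k3 (Set.toFinite _)
    omega
  by_cases he1 : e ∈ T (w + V - y)
  · have hT : T (w + V - y) = {a, b, e} := by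
      symm
      refine Set.eq_of_subset_of_ncard_le ?_ ?_ (Set.toFinite _)
      · rintro i (rfl | rfl | rfl) <;> assumption
      · rw [Set.ncard_insert_of_notMem, Set.ncard_pair hbe]
        · exact h3
        · simp only [mem_insert_iff, mem_singleton_iff, not_or]
          exact ⟨hab, hae⟩
    rcases h.lemmaX (u := w) (p := w + V - y) (v := V) (t := a)
      (by rw [dist_comm]; exact D.dwv) h3w (by
        rw [hT]
        rintro i (rfl | rfl | rfl)
        · exact Or.inl rfl
        · exact Or.inr hb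
        · exact Or.inr he) (D.dvV hw) (h.sub _ (by rw [D.dV.pal]; simp)) with h1 | h1
    · exact hwV h1.symm
    · exact hvy (by linear_combination -h1)
  · refine line_free h (z := V) (y := w + V - y) (v := w) (t := b) (D.dvV hw) ?_
      (by rw [dist_comm]; exact D.dwv) hwV (fun h1 => hvy ?_) (h.sub _ hb)
    · filter_upwards [mem_nhdsWithin_of_mem_nhds (isClosed_closure.isOpen_compl.mem_nhds hC),
        mem_nhdsWithin_of_mem_nhds (h.nhd (w + V - y)), self_mem_nhdsWithin] with q h2 h3 h4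
      obtain ⟨l, hl⟩ := C.cover (mem_sphere.1 h4)
      fin_cases l
      · exact absurd (h3 hl.2) he1
      · exact absurd (h3 hl.2) hf
      · exact sub_of_closure h (P := {a, b}) hl (by simp)
      · exact absurd hl h2
    · linear_combination -h1

/-- over the closed `df`-arcs of `S(y)`: only the closed `ab`-arcs and `e` -/
theorem overQ (D : KD U T V y a b c d e f) (hw : w ∈ closure (Ex T y {d, f})) :
    w + V - y ∈ closure (Ex T V {a, b}) ∨ e ∈ T (w + V - y) := by
  have h := D.irr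
  have C := ctr_of_dpt h D.dV D.nd
  have hcont : Continuous fun x' : ℂ => x' + V - y := by fun_prop
  have hcl : IsClosed {x' : ℂ | x' + V - y ∈ closure (Ex T V {a, b}) ∨ e ∈ T (x' + V - y)} :=
    (isClosed_closure.preimage hcont).union ((h.closed e).preimage hcont)
  have h1 : {x' | x' ∈ Ex T y {d, f} ∧ x' + V - y ≠ y} ⊆
      {x' : ℂ | x' + V - y ∈ closure (Ex T V {a, b}) ∨ e ∈ T (x' + V - y)} := by
    rintro x' ⟨h2, h3⟩
    have hx'V : x' ≠ V := by
      rintro rfl
      have h4 := ex_self h2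
      exact D.outV.2 (by rw [h4]; simp)
    have hfree := exact_free h h2 D.dist hx'V h3
    have hd : d ∉ T (x' + V - y) := hfree d (by simp)
    have hf : f ∉ T (x' + V - y) := hfree f (by simp)
    obtain ⟨l, hl⟩ := C.cover (D.dvV h2.1)
    fin_cases l
    · exact Or.inr hl.2
    · exact absurd hl.2 hf
    · exact Or.inl hl
    · exact absurd (sub_of_closure h (P := {c, d}) hl (by simp)) hd
  have h2 : Ex T y {d, f} ⊆
      {x' : ℂ | x' + V - y ∈ closure (Ex T V {a, b}) ∨ e ∈ T (x' + V - y)} := by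
    intro x' hx'
    by_cases h3 : x' + V - y = y
    · refine closure_minimal (fun q hq => h1 ⟨hq.1, fun h4 => hq.2 ?_⟩) hcl (ex_not_iso hx')
      rw [mem_singleton_iff]
      linear_combination h4 - h3
    · exact h1 ⟨hx', h3⟩
  exact closure_minimal h2 hcl hw

/-- `e` in the closed `df`-arcs of `S(y)`: the partner is in the closed `ab`-arcs -/
theorem endQ (D : KD U T V y a b c d e f) (hQ : w ∈ closure (Ex T y {d, f})) (he : e ∈ T w)
    (hwV : w ≠ V) (h3w : (T w).ncard ≤ 3) (h3 : (T (w + V - y)).ncard ≤ 3) :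
    w + V - y ∈ closure (Ex T V {a, b}) := by
  have h := D.irr
  have nd := D.nd
  simp only [List.nodup_cons, List.mem_cons, List.not_mem_nil, or_false, not_or,
    List.nodup_nil, and_true, not_false_eq_true] at nd
  obtain ⟨⟨hab, hac, had, hae, haf⟩, ⟨hbc, hbd, hbe, hbf⟩, ⟨hcd, hce, hcf⟩, ⟨hde, hdf⟩, hef⟩ := nd
  have hw : Dist.dist w y = 1 := dist_of_closure hQ
  have hsub := sub_of_closure h hQ
  have hd1 : d ∈ T w := hsub (by simp)
  have hf1 : f ∈ T w := hsub (by simp)
  rcases D.overQ hQ with h1 | he1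
  · exact h1
  have hvy : w + V - y ≠ y := fun h1 => D.outy.2 (h1 ▸ he1)
  have hT : T w = {d, e, f} := by
    symm
    refine Set.eq_of_subset_of_ncard_le ?_ ?_ (Set.toFinite _)
    · rintro i (rfl | rfl | rfl) <;> assumption
    · rw [Set.ncard_insert_of_notMem, Set.ncard_pair hef]
      · exact h3w
      · simp only [mem_insert_iff, mem_singleton_iff, not_or]
        exact ⟨hde, hdf⟩
  have key : ∀ i, i ∈ T y → T w ⊆ insert i (T (w + V - y)) → False := by
    intro i hi hs
    rcases h.lemmaX (u := w + V - y) (p := w) (v := y) (t := i) D.dwv h3 hs hw (h.sub _ hi)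
      with h1 | h1
    · exact hvy h1.symm
    · exact hwV (by linear_combination -h1)
  rcases D.ovr hw he hwV with h1 | h1 | h1
  · exact h1
  · exfalso
    refine key f (by rw [D.dy.pal]; simp) ?_
    rw [hT]
    rintro i (rfl | rfl | rfl)
    · exact Or.inr (sub_of_closure h h1 (by simp))
    · exact Or.inr he1
    · exact Or.inl rfl
  · exfalso
    refine key d (by rw [D.dy.pal]; simp) ?_
    rw [hT]
    rintro i (rfl | rfl | rfl)
    · exact Or.inl rfl
    · exact Or.inr he1
    · exact Or.inr h1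

end KD

/-! ### The heights -/

/-- the labels: `0 = e`, `1 = b`, `2` = exact `df` -/
def sk : Fin 3 → Fin 3 := ![1, 0, 2]

theorem sk_surj : ∀ i : Fin 3, ∃ l, sk l = i := by decide

/-- the reflected cover -/
theorem refl273 {Q : ℝ → Set (Fin 3)} (h : IntCov Q α 6) :
    IntCov (fun t => {l | sk l ∈ Q (6 - t)}) 0 (6 - α) where
  ne t ht := by
    obtain ⟨i, hi⟩ := h.ne (6 - t) ⟨by linarith [ht.2], by linarith [ht.1]⟩
    obtain ⟨l, hl⟩ := sk_surj i
    exact ⟨l, by show sk l ∈ Q (6 - t); rw [hl]; exact hi⟩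
  nu t ht := by
    obtain ⟨i, hi⟩ := h.nu (6 - t) ⟨by linarith [ht.2], by linarith [ht.1]⟩
    obtain ⟨l, hl⟩ := sk_surj i
    exact ⟨l, fun h1 => hi (by rw [← hl]; exact h1)⟩
  usc t ht := by
    have h1 := h.usc (6 - t) ⟨by linarith [ht.2], by linarith [ht.1]⟩
    have h2 : Continuous fun s : ℝ => 6 - s := by fun_prop
    filter_upwards [h2.continuousAt.eventually h1] with s hs l hl
    exact hs hl
  inc t h1 h2 hs := by
    refine h.inc' (6 - (t + 1)) (by linarith) (by linarith) fun i hi => ?_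
    obtain ⟨l, hl⟩ := sk_surj i
    have e1 : (6 : ℝ) - (t + 1) + 1 = 6 - t := by ring
    rw [e1] at hi
    subst hl
    exact hs hi
  inc' t h1 h2 hs := by
    refine h.inc (6 - (t + 1)) (by linarith) (by linarith) fun i hi => ?_
    obtain ⟨l, hl⟩ := sk_surj i
    have e1 : (6 : ℝ) - (t + 1) + 1 = 6 - t := by ring
    rw [e1]
    subst hl
    exact hs hi

theorem nd_k1 (nd : [a, b, c, d, e, f].Nodup) : [a, c, d, f, b, e].Nodup := by
  simp only [List.nodup_cons, List.mem_cons, List.not_mem_nil, or_false, not_or,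
    List.nodup_nil, and_true, not_false_eq_true] at nd ⊢
  obtain ⟨⟨hab, hac, had, hae, haf⟩, ⟨hbc, hbd, hbe, hbf⟩, ⟨hcd, hce, hcf⟩, ⟨hde, hdf⟩, hef⟩ := nd
  exact ⟨⟨hac, had, haf, hab, hae⟩, ⟨hcd, hcf, Ne.symm hbc, hce⟩, ⟨hdf, Ne.symm hbd, hde⟩,
    ⟨Ne.symm hbf, Ne.symm hef⟩, hbe⟩

theorem nd_k2 (nd : [a, b, c, d, e, f].Nodup) : [c, d, a, b, f, e].Nodup := by
  simp only [List.nodup_cons, List.mem_cons, List.not_mem_nil, or_false, not_or,
    List.nodup_nil, and_true, not_false_eq_true] at nd ⊢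
  obtain ⟨⟨hab, hac, had, hae, haf⟩, ⟨hbc, hbd, hbe, hbf⟩, ⟨hcd, hce, hcf⟩, ⟨hde, hdf⟩, hef⟩ := nd
  exact ⟨⟨hcd, Ne.symm hac, Ne.symm hbc, hcf, hce⟩, ⟨Ne.symm had, Ne.symm hbd, hdf, hde⟩,
    ⟨hab, haf, hae⟩, ⟨hbf, hbe⟩, Ne.symm hef⟩

/-- the data of `H636/Pass` at a K end -/
theorem lab273 (A : Ar U T y a c P α) (D : KD U T (P 0) y a b c d e f)
    (hA : ∀ p ∈ closure (Ex T (P 0) {a, b}), (T p).ncard ≤ 3 → f ∉ T p) :
    Lab (fun t => {l | sk l ∈ Qd T y a c d f b e P (6 - t)}) (6 - α)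
      {t | P (6 - t) + P 0 - y ∈ closure (Ex T (P 0) {a, b})}
      {t | P (6 - t) + P 0 - y ∈ closure (Ex T (P 0) {c, d}) ∨ f ∈ T (P (6 - t) + P 0 - y)}
      {t | 4 ≤ (T (P (6 - t) + P 0 - y)).ncard ∧ P (6 - t) + P 0 - y ≠ y} := by
  have h := A.irr
  have C := ctr_of_dpt h D.dy (nd_k1 D.nd)
  obtain ⟨heV, hfV⟩ := D.outV
  obtain ⟨hby, hey⟩ := D.outy
  have hα := A.α1
  have hα0 := A.α0
  have hcont : Continuous fun t : ℝ => P (6 - t) + P 0 - y := by
    have := A.circ.cont
    fun_prop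
  have q0 : ∀ t : ℝ, (0 : Fin 3) ∈ ({l | sk l ∈ Qd T y a c d f b e P (6 - t)} : Set (Fin 3)) →
      e ∈ T (P (6 - t)) := fun t ht => ht.2
  have q1 : ∀ t : ℝ, (1 : Fin 3) ∈ ({l | sk l ∈ Qd T y a c d f b e P (6 - t)} : Set (Fin 3)) →
      b ∈ T (P (6 - t)) := fun t ht => ht.2
  have q2 : ∀ t : ℝ, (2 : Fin 3) ∈ ({l | sk l ∈ Qd T y a c d f b e P (6 - t)} : Set (Fin 3)) →
      P (6 - t) ∈ closure (Ex T y {d, f}) := fun t ht => ht
  have hI : ∀ t ∈ Ioo 0 (6 - α), (6 - t) ∈ Ioo α 6 := fun t ht =>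
    ⟨by linarith [ht.2], by linarith [ht.1]⟩
  have hne : ∀ t ∈ Ioo 0 (6 - α), P (6 - t) ≠ P 0 := fun t ht =>
    (A.circ.inj 0 (6 - t) (by linarith [(hI t ht).1]) (by linarith [(hI t ht).2])).symm
  refine ⟨refl273 (A.intCov C), ?_, ?_, isClosed_closure.preimage hcont,
    (isClosed_closure.preimage hcont).union ((h.closed f).preimage hcont), ?_, ?_, ?_, ?_⟩
  · -- near the end
    have h1 : Tendsto (fun t : ℝ => 6 - t) (𝓝[>] 0) (𝓝[<] 6) := by
      rw [tendsto_nhdsWithin_iff]
      refine ⟨?_, ?_⟩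
      · have h2 : Continuous fun t : ℝ => 6 - t := by fun_prop
        have h3 := h2.tendsto 0
        rw [sub_zero] at h3
        exact h3.mono_left nhdsWithin_le_nhds
      · filter_upwards [self_mem_nhdsWithin] with t ht
        have ht : 0 < t := ht
        show 6 - t < 6
        linarith
    filter_upwards [h1.eventually A.near6] with t ht h2
    exact heV (ht (q0 t h2))
  · -- the apex
    have h6 : P 6 = P 0 := by
      have := A.circ.six 0
      rwa [zero_add] at this
    have e5 : (6 : ℝ) - 1 = 5 := by norm_num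
    have h51 := A.circ.one 5
    rw [show (5 : ℝ) + 1 = 6 by norm_num, h6] at h51
    refine ⟨A.circ.dst _, ?_⟩
    show e ∈ T (P (6 - 1))
    rw [e5]
    exact kapex460 h (z := P 0) (v := y) (p := P 5) D.dV.swap (nd_k2 D.nd) D.dy.swap12
      (by rw [dist_comm]; exact D.dist) h51 (A.circ.dst 5) (A.three 5 ⟨by linarith, by norm_num⟩)
  · intro t ht h0
    exact D.ovr (A.circ.dst _) (q0 t h0) (hne t ht)
  · intro t ht h0 h1
    rcases D.ovr (A.circ.dst _) (q0 t h0) (hne t ht) with k | k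
    · right
      have hb1 : b ∈ T (P (6 - t) + P 0 - y) := sub_of_closure h k (by simp)
      refine ⟨?_, fun h4 => hby (h4 ▸ hb1)⟩
      by_contra hlt
      exact D.endb (A.circ.dst _) (q0 t h0) (q1 t h1) (hne t ht) (A.three _ (hI t ht)) k
        (by omega) (hA _ k (by omega))
    · exact Or.inl k
  · intro t ht h0 h2
    by_cases hw : (T (P (6 - t) + P 0 - y)).ncard ≤ 3
    · left
      exact D.endQ (q2 t h2) (q0 t h0) (hne t ht) (A.three _ (hI t ht)) hw
    · rcases D.overQ (q2 t h2) with k | k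
      · exact Or.inl k
      · exact Or.inr ⟨by omega, fun h4 => hey (h4 ▸ k)⟩
  · intro t ht h1 h2
    have hb1 : b ∈ T (P (6 - t) + P 0 - y) := sub_of_closure h h1 (by simp)
    have ha1 : a ∈ T (P (6 - t) + P 0 - y) := sub_of_closure h h1 (by simp)
    refine ⟨?_, fun h4 => hby (h4 ▸ hb1)⟩
    rcases h2 with h2 | h2
    · have k2 := sub_of_closure h h2
      have k3 : T (P 0) ⊆ T (P (6 - t) + P 0 - y) := by
        rw [D.dV.pal]
        rintro i (rfl | rfl | rfl | hi)
        · exact ha1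
        · exact hb1
        · exact k2 (by simp)
        · rw [mem_singleton_iff] at hi
          subst hi
          exact k2 (by simp)
      have e1 := card_dpt D.dV
      have e2 := Set.ncard_le_ncard k3 (Set.toFinite _)
      omega
    · by_contra hlt
      exact hA _ h1 (by omega) h2

/-- **no K end in the NoThree world** -/
theorem Ar.no_k273 (A : Ar U T y a c P α) (D : KD U T (P 0) y a b c d e f)
    (hA : ∀ p ∈ closure (Ex T (P 0) {a, b}), (T p).ncard ≤ 3 → f ∉ T p) : False := by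
  have L := lab273 A D hA
  have hα := A.α1
  have hy4 : 4 ≤ (T y).ncard := (card_dpt D.dy).ge
  rcases hα.lt_or_eq with h1 | h1
  · obtain ⟨r, r', r0, r5, r0', r5', hne, hr, hr'⟩ := L.two (by linarith)
    have h2 := A.eq_of hy4 (s := 6 - r) (s' := 6 - r') ⟨by linarith, by linarith⟩
      ⟨by linarith, by linarith⟩ hr hr'
    exact hne (by linarith)
  · obtain ⟨r, r0, r2, hr⟩ := L.one (by linarith)
    exact A.no_meet hy4 h1 (s := 6 - r) ⟨by linarith, by linarith⟩ hr

/-- **no K end in the NoThree world**, raw form -/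
theorem no_k_end273 (h : Irr U T) (hV : DPt T V a b c d) (hy : DPt T y a c d f)
    (nd : [a, b, c, d, e, f].Nodup) (hVy : dist V y = 1) (hp : H383.Pf T y a c)
    (hA : ∀ p ∈ closure (Ex T V {a, b}), (T p).ncard ≤ 3 → f ∉ T p)
    (hny : ∀ y1 y2 y3, dist y1 y = 1 → dist y2 y = 1 → dist y3 y = 1 → 4 ≤ (T y1).ncard →
      4 ≤ (T y2).ncard → 4 ≤ (T y3).ncard → y1 = y2 ∨ y1 = y3 ∨ y2 = y3)
    (hnV : ∀ y1 y2 y3, dist y1 V = 1 → dist y2 V = 1 → dist y3 V = 1 → 4 ≤ (T y1).ncard →
      4 ≤ (T y2).ncard → 4 ≤ (T y3).ncard → y1 = y2 ∨ y1 = y3 ∨ y2 = y3) : False := by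
  obtain ⟨s, t, hst, hst1, hI, hall, hs, ht, hord⟩ := one_arc169 h hy hp hny
  have D : KD U T V y a b c d e f := ⟨h, hV, hy, nd, hVy⟩
  rcases hord V hVy (card_dpt hV).ge with rfl | rfl
  · have A := ar_of h hy hst hst1 hall hs.1 ht.1 hord (θ := s) (o := 1) (Or.inl ⟨rfl, rfl⟩) hnV
    exact Ar.no_k273 A (by simpa using D) (by simpa using hA)
  · have A := ar_of h hy hst hst1 hall hs.1 ht.1 hord (θ := t) (o := -1) (Or.inr ⟨rfl, rfl⟩) hnV
    exact Ar.no_k273 A (by simpa using D) (by simpa using hA)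

end Vale.Agent.P032.H273
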