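import Vale.Agent.P032.H98.MRow
import Vale.Agent.P032.H824.KComp
import Vale.Agent.P032.H273.K3

/-!
# P032: row K of the theorem on modes, degree at most two

`rowK98 : RowK98` : a two-pair point `V = (ab | cd)` whose pairs both have plain ends, all of them with
the colour `e`, has no neighbour `y = (ac | df)`.
-/

open Set Filter Topology Metric

noncomputable section

namespace Vale.Agent.P032.H273

open Vale.Agent.P032.Six Vale.Agent.P032.S5.H767 Vale.Agent.P032.H383 Vale.Agent.P032.H800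
  Vale.Agent.P032.H98

variable {U : Fin 6 → Set ℂ} {T : ℂ → Set (Fin 6)} {V y : ℂ} {a b c d e f : Fin 6}

/-- the point of order at least four besides `y` -/
theorem second273 {V y : ℂ} (hyV : dist y V = 1) (hy4 : 4 ≤ (T y).ncard)
    (n3 : ∀ y1 y2 y3, dist y1 V = 1 → dist y2 V = 1 → dist y3 V = 1 → 4 ≤ (T y1).ncard →
      4 ≤ (T y2).ncard → 4 ≤ (T y3).ncard → y1 = y2 ∨ y1 = y3 ∨ y2 = y3) :
    ∃ y2, ∀ x, dist x V = 1 → 4 ≤ (T x).ncard → x = y ∨ x = y2 := by
  by_cases hex : ∃ y2, dist y2 V = 1 ∧ 4 ≤ (T y2).ncard ∧ y2 ≠ y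
  · obtain ⟨y2, h1, h2, h3⟩ := hex
    refine ⟨y2, fun x hx hx4 => ?_⟩
    rcases n3 y y2 x hyV h1 hx hy4 h2 hx4 with h4 | h4 | h4
    · exact absurd h4.symm h3
    · exact Or.inl h4.symm
    · exact Or.inr h4.symm
  · push Not at hex
    exact ⟨y, fun x hx hx4 => Or.inl (hex x hx hx4)⟩

/-- the pair `df` of `y` is not plain-free -/
theorem no_pf_df273 (h : Irr U T) (hV : DPt T V a b c d) (hy : DPt T y a c d f)
    (nd : [a, b, c, d, e, f].Nodup) (hVy : dist V y = 1) (hp : H383.Pf T y d f)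
    (hny : ∀ y1 y2 y3, dist y1 y = 1 → dist y2 y = 1 → dist y3 y = 1 → 4 ≤ (T y1).ncard →
      4 ≤ (T y2).ncard → 4 ≤ (T y3).ncard → y1 = y2 ∨ y1 = y3 ∨ y2 = y3) : False := by
  have hf := (H961.free_notMem hV nd).2
  obtain ⟨s, t, -, -, -, -, hs, ht, hord⟩ := one_arc169 h hy.swap hp hny
  rcases hord V hVy (H961.card_dpt hV).ge with h1 | h1
  · exact hf (h1 ▸ hs.2.2)
  · exact hf (h1 ▸ ht.2.2)

/-- **row K** -/
theorem rowK98 : RowK98 := by
  intro U T X L V a b c d e f M y hyV hD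
  have h := X.df.irr
  have hVy : dist V y = 1 := by rw [dist_comm]; exact hyV
  have hV4 : 4 ≤ (T V).ncard := M.dpt.ncard.ge
  have hy4 : 4 ≤ (T y).ncard := hD.ncard.ge
  have nV := fun y1 y2 y3 => X.n3 V y1 y2 y3 hV4
  have ny := fun y1 y2 y3 => X.n3 y y1 y2 y3 hy4
  obtain ⟨⟨ab, ac, ad, ae, af⟩, ⟨bc, bd, be, bf⟩, ⟨cd, ce, cf⟩, ⟨de, df⟩, ef⟩ := nd_all353 M.nd
  have hfA : ∀ p ∈ closure (Ex T V {a, b}), (T p).ncard ≤ 3 → f ∉ T p := by
    intro p hp h3 hf
    rcases M.hA p hp h3 with h4 | h4 <;> rw [h4] at hf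
    · rcases hf with h5 | h5
      · exact af h5.symm
      · exact bf h5.symm
    · rcases hf with h5 | h5 | h5
      · exact af h5.symm
      · exact bf h5.symm
      · exact ef h5.symm
  have hfC : ∀ p ∈ closure (Ex T V {c, d}), (T p).ncard ≤ 3 → f ∉ T p := by
    intro p hp h3 hf
    rcases M.hC p hp h3 with h4 | h4 <;> rw [h4] at hf
    · rcases hf with h5 | h5
      · exact cf h5.symm
      · exact df h5.symm
    · rcases hf with h5 | h5 | h5
      · exact cf h5.symm
      · exact df h5.symm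
      · exact ef h5.symm
  rcases H79.modes79 h X.nc hD (nd_k1 M.nd) with h1 | h1 | ⟨g, g', hg, h2, h3, h4, h5⟩
  · exact no_k_end273 h M.dpt hD M.nd hVy (H79.pf_of_free79 h hD h1) hfA ny nV
  · exact no_pf_df273 h M.dpt hD M.nd hVy (H79.pf_of_free79 h hD.swap h1) ny
  · rcases hg with ⟨rfl, rfl⟩ | ⟨rfl, rfl⟩
    · -- mode `M_b` of `y`: `V` is harmless on `S(y)`
      refine (L y a c d f g g' ⟨hD, nd_k1 M.nd, h2, h3, h4, h5⟩ V hVy hV4).2
        ⟨{a, g}, {c, d}, PQ738.of_dpt h M.dpt, ?_, ?_, ?_⟩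
      · intro h6
        have h7 : a ∈ ({g, g'} : Set (Fin 6)) := h6 ▸ Or.inl rfl
        rcases h7 with h7 | h7
        · exact ab h7
        · exact ae h7
      · intro h6
        have h7 : c ∈ ({g, g'} : Set (Fin 6)) := h6 ▸ Or.inl rfl
        rcases h7 with h7 | h7
        · exact bc h7.symm
        · exact ce h7
      · rw [M.dpt.pal]; simp
    · -- mode `M_e` of `y`
      have hgA : ∀ p ∈ closure (Ex T y {a, c}), (T p).ncard ≤ 3 → g' ∉ T p := by
        intro p hp h3 hb
        rcases h4 p hp h3 with h6 | h6 <;> rw [h6] at hb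
        · rcases hb with h7 | h7
          · exact ab h7.symm
          · exact bc h7
        · rcases hb with h7 | h7 | h7
          · exact ab h7.symm
          · exact bc h7
          · exact be h7
      have hgQ : ∀ p ∈ closure (Ex T y {d, f}), (T p).ncard ≤ 3 → g' ∉ T p := by
        intro p hp h3 hb
        rcases h5 p hp h3 with h6 | h6 <;> rw [h6] at hb
        · rcases hb with h7 | h7
          · exact bd h7
          · exact bf h7
        · rcases hb with h7 | h7 | h7
          · exact bd h7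
          · exact bf h7
          · exact be h7
      obtain ⟨y2, o1⟩ := second273 hyV hy4 nV
      obtain ⟨y1, o2⟩ := second273 hVy hV4 ny
      exact k4_824 h M.nd M.dpt hD hyV hfA hfC hgA hgQ o1 o2

end Vale.Agent.P032.H273
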