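import Vale.Agent.P032.H564.IntHt

/-!
# P032: two passages

A family `Q` of labels `0, 1, 2` on an interval of length > 5 (`IntCov`), with `Q = {0}` just after
the left end `a` and `Q = {1}` just after `a + 1`, has two disjoint passages `0 - 1 - 2`. So it does
not exist if all passages contain one direction `δ`.
-/

open Set Filter Topology

noncomputable section

namespace Vale.Agent.P032.H273

open Vale.Agent.P032.H180 Vale.Agent.P032.H564

variable {Q : ℝ → Set (Fin 3)} {a b : ℝ} {M : ℝ → ℤ} {u v : ℝ} {N : ℤ}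

/-- where the height is even it is locally constant -/
theorem even_loc (h : IntCov Q a b) (H : IntHt Q M u v N) (hu : a < u) (hv : v < b) {t : ℝ}
    (ht : t ∈ Icc u v) (he : M t % 2 = 0) : ∀ᶠ s in 𝓝[Icc u v] t, M s = M t := by
  have hI : t ∈ Ioo a b := ⟨by linarith [ht.1], by linarith [ht.2]⟩
  filter_upwards [H.loc t ht, mem_nhdsWithin_of_mem_nhds (h.usc t hI), self_mem_nhdsWithin]
    with s hs hQ hsI
  have hsQ : s ∈ Icc u v := hsI
  obtain ⟨l, hl⟩ := h.ne s ⟨by linarith [hsQ.1], by linarith [hsQ.2]⟩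
  -- labels of `s` are labels of `t`
  have k0 : Res (M s - 2 * ((0 : Fin 3) : ℕ)) → Res (M t - 2 * ((0 : Fin 3) : ℕ)) := fun hc =>
    (H.mem t ht 0).1 (hQ ((H.mem s hsQ 0).2 hc))
  have k1 : Res (M s - 2 * ((1 : Fin 3) : ℕ)) → Res (M t - 2 * ((1 : Fin 3) : ℕ)) := fun hc =>
    (H.mem t ht 1).1 (hQ ((H.mem s hsQ 1).2 hc))
  have k2 : Res (M s - 2 * ((2 : Fin 3) : ℕ)) → Res (M t - 2 * ((2 : Fin 3) : ℕ)) := fun hc =>
    (H.mem t ht 2).1 (hQ ((H.mem s hsQ 2).2 hc))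
  simp only [Res, Fin.val_zero, Fin.val_one, Fin.val_two, Nat.cast_zero, Nat.cast_one,
    Nat.cast_ofNat] at k0 k1 k2
  rw [abs_le] at hs
  omega

theorem closed_le (h : IntCov Q a b) (H : IntHt Q M u v N) (hu : a < u) (hv : v < b) {c : ℤ}
    (hc : c % 2 = 0) : IsClosed {t | t ∈ Icc u v ∧ M t ≤ c - 1} := by
  refine isClosed_of_closure_subset fun x hx => ?_
  have hxI : x ∈ Icc u v := by
    have : x ∈ closure (Icc u v) := closure_mono (fun t ht => ht.1) hx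
    rwa [isClosed_Icc.closure_eq] at this
  refine ⟨hxI, ?_⟩
  by_contra hlt
  push Not at hlt
  rw [mem_closure_iff_frequently] at hx
  have key : ∀ᶠ s in 𝓝[Icc u v] x, c ≤ M s := by
    rcases eq_or_lt_of_le (show c ≤ M x by omega) with he | hl
    · filter_upwards [even_loc h H hu hv hxI (by omega)] with s hs
      omega
    · filter_upwards [H.loc x hxI] with s hs
      rw [abs_le] at hs
      omega
  rw [eventually_nhdsWithin_iff] at key
  obtain ⟨s, hs, hk⟩ := (hx.and_eventually key).exists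
  have := hk hs.1
  have := hs.2
  omega

theorem closed_ge (h : IntCov Q a b) (H : IntHt Q M u v N) (hu : a < u) (hv : v < b) {c : ℤ}
    (hc : c % 2 = 0) : IsClosed {t | t ∈ Icc u v ∧ c + 1 ≤ M t} := by
  refine isClosed_of_closure_subset fun x hx => ?_
  have hxI : x ∈ Icc u v := by
    have : x ∈ closure (Icc u v) := closure_mono (fun t ht => ht.1) hx
    rwa [isClosed_Icc.closure_eq] at this
  refine ⟨hxI, ?_⟩
  by_contra hlt
  push Not at hlt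
  rw [mem_closure_iff_frequently] at hx
  have key : ∀ᶠ s in 𝓝[Icc u v] x, M s ≤ c := by
    rcases eq_or_lt_of_le (show M x ≤ c by omega) with he | hl
    · filter_upwards [even_loc h H hu hv hxI (by omega)] with s hs
      omega
    · filter_upwards [H.loc x hxI] with s hs
      rw [abs_le] at hs
      omega
  rw [eventually_nhdsWithin_iff] at key
  obtain ⟨s, hs, hk⟩ := (hx.and_eventually key).exists
  have := hk hs.1
  have := hs.2
  omega

/-- a rising passage through the even value `c` -/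
theorem pass_up (h : IntCov Q a b) (H : IntHt Q M u v N) (hu : a < u) (hv : v < b) {c : ℤ}
    (hc : c % 2 = 0) {p q : ℝ} (hp : p ∈ Icc u v) (hq : q ∈ Icc u v) (hpq : p ≤ q)
    (h1 : M p ≤ c - 1) (h2 : c + 1 ≤ M q) :
    ∃ t1 t2, t1 < t2 ∧ t1 ∈ Icc u v ∧ t2 ∈ Icc u v ∧ M t1 = c - 1 ∧ M t2 = c + 1 ∧
      ∀ t ∈ Ioo t1 t2, M t = c := by
  have hK : IsCompact ({t | t ∈ Icc u v ∧ c + 1 ≤ M t} ∩ Icc p q) :=
    isCompact_Icc.inter_left (closed_ge h H hu hv hc)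
  obtain ⟨t2, ht2, hmin⟩ := hK.exists_isLeast ⟨q, ⟨hq, h2⟩, hpq, le_rfl⟩
  have hK' : IsCompact ({t | t ∈ Icc u v ∧ M t ≤ c - 1} ∩ Icc p t2) :=
    isCompact_Icc.inter_left (closed_le h H hu hv hc)
  obtain ⟨t1, ht1, hmax⟩ := hK'.exists_isGreatest ⟨p, ⟨hp, h1⟩, le_rfl, ht2.2.1⟩
  have hlt : t1 < t2 := by
    rcases eq_or_lt_of_le ht1.2.2 with he | hl
    · exfalso
      have e1 := ht1.1.2
      have e2 := ht2.1.2
      rw [he] at e1
      omega
    · exact hl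
  have hmid : ∀ t ∈ Ioo t1 t2, M t = c := by
    intro t ht
    have htI : t ∈ Icc u v := ⟨by linarith [ht.1, ht1.1.1.1], by linarith [ht.2, ht2.1.1.2]⟩
    have g1 : ¬ c + 1 ≤ M t := fun hc' => by
      have := hmin ⟨⟨htI, hc'⟩, by linarith [ht.1, ht1.2.1], by linarith [ht.2, ht2.2.2]⟩
      linarith [ht.2]
    have g2 : ¬ M t ≤ c - 1 := fun hc' => by
      have := hmax ⟨⟨htI, hc'⟩, by linarith [ht.1, ht1.2.1], by linarith [ht.2]⟩
      linarith [ht.1]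
    omega
  refine ⟨t1, t2, hlt, ht1.1.1, ht2.1.1, ?_, ?_, hmid⟩
  · have hn : (𝓝[Ioo t1 t2] t1).NeBot := by
      rw [← mem_closure_iff_nhdsWithin_neBot, closure_Ioo hlt.ne]
      exact ⟨le_rfl, hlt.le⟩
    have hsub : Ioo t1 t2 ⊆ Icc u v := fun y hy =>
      ⟨by linarith [hy.1, ht1.1.1.1], by linarith [hy.2, ht2.1.1.2]⟩
    have hev : ∀ᶠ s in 𝓝[Ioo t1 t2] t1, |M s - M t1| ≤ 1 :=
      nhdsWithin_mono t1 hsub (H.loc t1 ht1.1.1)
    obtain ⟨s, hs, hsI⟩ := (hev.and self_mem_nhdsWithin).exists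
    have e := hmid s hsI
    have := ht1.1.2
    rw [abs_le] at hs
    omega
  · have hn : (𝓝[Ioo t1 t2] t2).NeBot := by
      rw [← mem_closure_iff_nhdsWithin_neBot, closure_Ioo hlt.ne]
      exact ⟨hlt.le, le_rfl⟩
    have hsub : Ioo t1 t2 ⊆ Icc u v := fun y hy =>
      ⟨by linarith [hy.1, ht1.1.1.1], by linarith [hy.2, ht2.1.1.2]⟩
    have hev : ∀ᶠ s in 𝓝[Ioo t1 t2] t2, |M s - M t2| ≤ 1 :=
      nhdsWithin_mono t2 hsub (H.loc t2 ht2.1.1)
    obtain ⟨s, hs, hsI⟩ := (hev.and self_mem_nhdsWithin).exists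
    have e := hmid s hsI
    have := ht2.1.2
    rw [abs_le] at hs
    omega

/-- a falling passage through the even value `c` -/
theorem pass_down (h : IntCov Q a b) (H : IntHt Q M u v N) (hu : a < u) (hv : v < b) {c : ℤ}
    (hc : c % 2 = 0) {p q : ℝ} (hp : p ∈ Icc u v) (hq : q ∈ Icc u v) (hpq : p ≤ q)
    (h1 : c + 1 ≤ M p) (h2 : M q ≤ c - 1) :
    ∃ t1 t2, t1 < t2 ∧ t1 ∈ Icc u v ∧ t2 ∈ Icc u v ∧ M t1 = c + 1 ∧ M t2 = c - 1 ∧
      ∀ t ∈ Ioo t1 t2, M t = c := by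
  have hK : IsCompact ({t | t ∈ Icc u v ∧ M t ≤ c - 1} ∩ Icc p q) :=
    isCompact_Icc.inter_left (closed_le h H hu hv hc)
  obtain ⟨t2, ht2, hmin⟩ := hK.exists_isLeast ⟨q, ⟨hq, h2⟩, hpq, le_rfl⟩
  have hK' : IsCompact ({t | t ∈ Icc u v ∧ c + 1 ≤ M t} ∩ Icc p t2) :=
    isCompact_Icc.inter_left (closed_ge h H hu hv hc)
  obtain ⟨t1, ht1, hmax⟩ := hK'.exists_isGreatest ⟨p, ⟨hp, h1⟩, le_rfl, ht2.2.1⟩
  have hlt : t1 < t2 := by
    rcases eq_or_lt_of_le ht1.2.2 with he | hl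
    · exfalso
      have e1 := ht1.1.2
      have e2 := ht2.1.2
      rw [he] at e1
      omega
    · exact hl
  have hmid : ∀ t ∈ Ioo t1 t2, M t = c := by
    intro t ht
    have htI : t ∈ Icc u v := ⟨by linarith [ht.1, ht1.1.1.1], by linarith [ht.2, ht2.1.1.2]⟩
    have g1 : ¬ M t ≤ c - 1 := fun hc' => by
      have := hmin ⟨⟨htI, hc'⟩, by linarith [ht.1, ht1.2.1], by linarith [ht.2, ht2.2.2]⟩
      linarith [ht.2]
    have g2 : ¬ c + 1 ≤ M t := fun hc' => by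
      have := hmax ⟨⟨htI, hc'⟩, by linarith [ht.1, ht1.2.1], by linarith [ht.2]⟩
      linarith [ht.1]
    omega
  refine ⟨t1, t2, hlt, ht1.1.1, ht2.1.1, ?_, ?_, hmid⟩
  · have hn : (𝓝[Ioo t1 t2] t1).NeBot := by
      rw [← mem_closure_iff_nhdsWithin_neBot, closure_Ioo hlt.ne]
      exact ⟨le_rfl, hlt.le⟩
    have hsub : Ioo t1 t2 ⊆ Icc u v := fun y hy =>
      ⟨by linarith [hy.1, ht1.1.1.1], by linarith [hy.2, ht2.1.1.2]⟩
    have hev : ∀ᶠ s in 𝓝[Ioo t1 t2] t1, |M s - M t1| ≤ 1 :=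
      nhdsWithin_mono t1 hsub (H.loc t1 ht1.1.1)
    obtain ⟨s, hs, hsI⟩ := (hev.and self_mem_nhdsWithin).exists
    have e := hmid s hsI
    have := ht1.1.2
    rw [abs_le] at hs
    omega
  · have hn : (𝓝[Ioo t1 t2] t2).NeBot := by
      rw [← mem_closure_iff_nhdsWithin_neBot, closure_Ioo hlt.ne]
      exact ⟨hlt.le, le_rfl⟩
    have hsub : Ioo t1 t2 ⊆ Icc u v := fun y hy =>
      ⟨by linarith [hy.1, ht1.1.1.1], by linarith [hy.2, ht2.1.1.2]⟩
    have hev : ∀ᶠ s in 𝓝[Ioo t1 t2] t2, |M s - M t2| ≤ 1 :=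
      nhdsWithin_mono t2 hsub (H.loc t2 ht2.1.1)
    obtain ⟨s, hs, hsI⟩ := (hev.and self_mem_nhdsWithin).exists
    have e := hmid s hsI
    have := ht2.1.2
    rw [abs_le] at hs
    omega

/-- `δ` lies on every passage `0 - 1 - 2` (either order) -/
def AllPass (Q : ℝ → Set (Fin 3)) (a b δ : ℝ) : Prop :=
  ∀ t1 t2, a < t1 → t1 < t2 → t2 < b → (∀ t ∈ Ioo t1 t2, Q t = {1}) →
    (Q t1 = {0, 1} ∧ Q t2 = {1, 2} ∨ Q t1 = {1, 2} ∧ Q t2 = {0, 1}) → δ ∈ Icc t1 t2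

theorem lab1 (H : IntHt Q M u v N) {t : ℝ} (ht : t ∈ Icc u v) (hm : M t % 6 = 2) : Q t = {1} := by
  ext l
  rw [H.mem t ht l]
  fin_cases l <;> simp [Res] <;> omega

theorem lab01 (H : IntHt Q M u v N) {t : ℝ} (ht : t ∈ Icc u v) (hm : M t % 6 = 1) :
    Q t = {0, 1} := by
  ext l
  rw [H.mem t ht l]
  fin_cases l <;> simp [Res] <;> omega

theorem lab12 (H : IntHt Q M u v N) {t : ℝ} (ht : t ∈ Icc u v) (hm : M t % 6 = 3) :
    Q t = {1, 2} := by
  ext l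
  rw [H.mem t ht l]
  fin_cases l <;> simp [Res] <;> omega

/-- on the passage with centre `c` the height at `δ` is within `1` of `c` -/
theorem pass_mem (h : IntCov Q a b) (H : IntHt Q M u v N) (hu : a < u) (hv : v < b) {δ : ℝ}
    (hp : AllPass Q a b δ) {c : ℤ} (hc : c % 6 = 2) {p q : ℝ} (hpI : p ∈ Icc u v)
    (hqI : q ∈ Icc u v) (hpq : p ≤ q)
    (h12 : (M p ≤ c - 1 ∧ c + 1 ≤ M q) ∨ (c + 1 ≤ M p ∧ M q ≤ c - 1)) :
    c - 1 ≤ M δ ∧ M δ ≤ c + 1 := by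
  rcases h12 with ⟨h1, h2⟩ | ⟨h1, h2⟩
  · obtain ⟨t1, t2, hlt, i1, i2, e1, e2, hm⟩ := pass_up h H hu hv (by omega) hpI hqI hpq h1 h2
    have hδ := hp t1 t2 (by linarith [i1.1]) hlt (by linarith [i2.2])
      (fun t ht => lab1 H ⟨by linarith [ht.1, i1.1], by linarith [ht.2, i2.2]⟩
        (by rw [hm t ht]; exact hc))
      (Or.inl ⟨lab01 H i1 (by omega), lab12 H i2 (by omega)⟩)
    rcases eq_or_lt_of_le hδ.1 with he | hl
    · rw [← he]; omega
    rcases eq_or_lt_of_le hδ.2 with he | hl'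
    · rw [he]; omega
    rw [hm δ ⟨hl, hl'⟩]; omega
  · obtain ⟨t1, t2, hlt, i1, i2, e1, e2, hm⟩ := pass_down h H hu hv (by omega) hpI hqI hpq h1 h2
    have hδ := hp t1 t2 (by linarith [i1.1]) hlt (by linarith [i2.2])
      (fun t ht => lab1 H ⟨by linarith [ht.1, i1.1], by linarith [ht.2, i2.2]⟩
        (by rw [hm t ht]; exact hc))
      (Or.inr ⟨lab12 H i1 (by omega), lab01 H i2 (by omega)⟩)
    rcases eq_or_lt_of_le hδ.1 with he | hl
    · rw [← he]; omega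
    rcases eq_or_lt_of_le hδ.2 with he | hl'
    · rw [he]; omega
    rw [hm δ ⟨hl, hl'⟩]; omega

/-- **two passages, normalized** : `Q = {0}` after `a`, `Q = {1}` after `a + 1` -/
theorem n5 (h : IntCov Q a b) {δ : ℝ} (hab : a + 5 < b) (h0 : ∀ᶠ t in 𝓝[>] a, Q t ⊆ {0})
    (h1 : ∀ᶠ t in 𝓝[>] (a + 1), Q t ⊆ {1}) (hp : AllPass Q a b δ) : False := by
  have h1' : ∀ᶠ t in 𝓝[>] a, Q (t + 1) ⊆ {1} := by
    rw [eventually_nhdsWithin_iff] at h1 ⊢
    have ht : Tendsto (fun t : ℝ => t + 1) (𝓝 a) (𝓝 (a + 1)) :=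
      (continuous_id.add continuous_const).tendsto a
    filter_upwards [ht.eventually h1] with t ht hta
    exact ht (by simpa using hta)
  have h2 : ∀ᶠ t in 𝓝[>] a, t < b - 5 := by
    apply mem_nhdsWithin_of_mem_nhds
    exact Iio_mem_nhds (by linarith)
  obtain ⟨u, ⟨⟨hu0, hu1⟩, hub⟩, hau⟩ := (((h0.and h1').and h2).and self_mem_nhdsWithin).exists
  have hau' : a < u := hau
  obtain ⟨M, N, H⟩ := h.exHt (u := u) (v := u + 5) hau' (by linarith) (by linarith)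
  have i0 : u ∈ Icc u (u + 5) := ⟨le_rfl, by linarith⟩
  have i1 : u + 1 ∈ Icc u (u + 5) := ⟨by linarith, by linarith⟩
  have i5 : u + 5 ∈ Icc u (u + 5) := ⟨by linarith, le_rfl⟩
  have r0 := H.r0 i0 hu0
  have r1 := H.r1 i1 hu1
  have s1 := H.step u (by linarith) (by linarith)
  have s2 := H.step (u + 1) (by linarith) (by linarith)
  have s3 := H.step (u + 2) (by linarith) (by linarith)
  have s4 := H.step (u + 3) (by linarith) (by linarith)
  have s5 := H.step (u + 4) (by linarith) (by linarith)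
  rw [show u + 1 + 1 = u + 2 by ring] at s2
  rw [show u + 2 + 1 = u + 3 by ring] at s3
  rw [show u + 3 + 1 = u + 4 by ring] at s4
  rw [show u + 4 + 1 = u + 5 by ring] at s5
  rcases lt_or_ge N 0 with hN | hN
  · have p1 := pass_mem h H hau' (by linarith) hp (c := M u - 4) (by omega) i0 i5 (by linarith)
      (Or.inr ⟨by omega, by omega⟩)
    have p2 := pass_mem h H hau' (by linarith) hp (c := M u - 10) (by omega) i0 i5 (by linarith)
      (Or.inr ⟨by omega, by omega⟩)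
    omega
  · have p1 := pass_mem h H hau' (by linarith) hp (c := M u + 2) (by omega) i0 i5 (by linarith)
      (Or.inl ⟨by omega, by omega⟩)
    have p2 := pass_mem h H hau' (by linarith) hp (c := M u + 8) (by omega) i0 i5 (by linarith)
      (Or.inl ⟨by omega, by omega⟩)
    omega

theorem comap_eq {l0 l1 l2 : Fin 3} (h01 : l0 ≠ l1) (h12 : l1 ≠ l2) (h02 : l0 ≠ l2)
    {S : Set (Fin 3)} :
    ({i | ![l0, l1, l2] i ∈ S} = {1} → S = {l1}) ∧
      ({i | ![l0, l1, l2] i ∈ S} = {0, 1} → S = {l0, l1}) ∧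
      ({i | ![l0, l1, l2] i ∈ S} = {1, 2} → S = {l1, l2}) := by
  have hs := perm_surj h01 h12 h02
  have key : ∀ A : Set (Fin 3), {i | ![l0, l1, l2] i ∈ S} = A → S = ![l0, l1, l2] '' A := by
    rintro A rfl
    exact (Set.image_preimage_eq S hs).symm
  refine ⟨fun h => ?_, fun h => ?_, fun h => ?_⟩
  · rw [key _ h]; simp
  · rw [key _ h]; simp [Set.image_insert_eq]
  · rw [key _ h]; simp [Set.image_insert_eq]

/-- **(A5)** `Q = {l0}` just after `a`, `Q = {l1}` at `a + 1`, and every passage `l0 - l1 - l2`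
(either order) contains `φ` : impossible on an interval of length > 5 -/
theorem a5 (h : IntCov Q a b) {l0 l1 l2 : Fin 3} (h01 : l0 ≠ l1) (h12 : l1 ≠ l2) (h02 : l0 ≠ l2)
    (hab : a + 5 < b) (h0 : ∀ᶠ t in 𝓝[>] a, Q t ⊆ {l0}) (h1 : Q (a + 1) ⊆ {l1}) {φ : ℝ}
    (hP : ∀ t1 t2, a < t1 → t1 < t2 → t2 < b → (∀ t ∈ Ioo t1 t2, Q t = {l1}) →
      (Q t1 = {l0, l1} ∧ Q t2 = {l1, l2} ∨ Q t1 = {l1, l2} ∧ Q t2 = {l0, l1}) →
      φ ∈ Icc t1 t2) : False := by
  have hs := perm_surj h01 h12 h02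
  have hp := perm_eq h01 h12 h02
  refine n5 (h.comap _ hs) (δ := φ) hab ?_ ?_ ?_
  · filter_upwards [h0] with t ht i hi
    exact hp.1 i (ht hi)
  · have hu := h.usc (a + 1) ⟨by linarith, by linarith⟩
    filter_upwards [mem_nhdsWithin_of_mem_nhds hu] with t ht i hi
    exact hp.2.1 i (h1 (ht hi))
  · intro t1 t2 i1 i2 i3 hm he
    obtain ⟨k1, k2, k3⟩ := comap_eq (S := Q t1) h01 h12 h02
    obtain ⟨m1, m2, m3⟩ := comap_eq (S := Q t2) h01 h12 h02
    refine hP t1 t2 i1 i2 i3 (fun t ht => (comap_eq (S := Q t) h01 h12 h02).1 (hm t ht)) ?_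
    rcases he with ⟨e1, e2⟩ | ⟨e1, e2⟩
    · exact Or.inl ⟨k2 e1, m3 e2⟩
    · exact Or.inr ⟨k3 e1, m2 e2⟩

/-- weak literal of (A5) -/
theorem a5w (h : IntCov Q a b) {l0 l1 l2 : Fin 3} (h01 : l0 ≠ l1) (h12 : l1 ≠ l2) (h02 : l0 ≠ l2)
    (hab : a + 5 < b) (h0 : ∀ᶠ t in 𝓝[>] a, Q t ⊆ {l0}) (h1 : Q (a + 1) ⊆ {l1}) {φ : ℝ}
    (hP : ∀ t1 t2, a < t1 → t1 < t2 → t2 < b → (∀ t ∈ Ioo t1 t2, Q t ⊆ {l1}) → l1 ∈ Q t1 →
      l1 ∈ Q t2 → ((l0 ∈ Q t1 ∧ l2 ∈ Q t2) ∨ (l2 ∈ Q t1 ∧ l0 ∈ Q t2)) → φ ∈ Icc t1 t2) :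
    False := by
  refine a5 h h01 h12 h02 hab h0 h1 (φ := φ) fun t1 t2 i1 i2 i3 hm he => ?_
  rcases he with ⟨e1, e2⟩ | ⟨e1, e2⟩
  · exact hP t1 t2 i1 i2 i3 (fun t ht => (hm t ht).subset) (by rw [e1]; simp) (by rw [e2]; simp)
      (Or.inl ⟨by rw [e1]; simp, by rw [e2]; simp⟩)
  · exact hP t1 t2 i1 i2 i3 (fun t ht => (hm t ht).subset) (by rw [e1]; simp) (by rw [e2]; simp)
      (Or.inr ⟨by rw [e1]; simp, by rw [e2]; simp⟩)

/-- mirror image -/
theorem _root_.Vale.Agent.P032.H564.IntCov.mirror (h : IntCov Q a b) :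
    IntCov (fun t => Q (-t)) (-b) (-a) := by
  refine ⟨fun t ht => h.ne _ ⟨by linarith [ht.2], by linarith [ht.1]⟩,
    fun t ht => h.nu _ ⟨by linarith [ht.2], by linarith [ht.1]⟩, fun t ht => ?_,
    fun t h1 h2 hs => ?_, fun t h1 h2 hs => ?_⟩
  · have hu := h.usc (-t) ⟨by linarith [ht.2], by linarith [ht.1]⟩
    exact (continuous_neg.tendsto t).eventually hu
  · refine h.inc' (-(t + 1)) (by linarith) (by linarith) ?_
    rw [show -(t + 1) + 1 = -t by ring]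
    exact hs
  · refine h.inc (-(t + 1)) (by linarith) (by linarith) ?_
    rw [show -(t + 1) + 1 = -t by ring]
    exact hs

/-- **(A5)**, mirror image : `Q = {l0}` just before `b`, `Q = {l1}` at `b - 1` -/
theorem a5' (h : IntCov Q a b) {l0 l1 l2 : Fin 3} (h01 : l0 ≠ l1) (h12 : l1 ≠ l2) (h02 : l0 ≠ l2)
    (hab : a + 5 < b) (h0 : ∀ᶠ t in 𝓝[<] b, Q t ⊆ {l0}) (h1 : Q (b - 1) ⊆ {l1}) {φ : ℝ}
    (hP : ∀ t1 t2, a < t1 → t1 < t2 → t2 < b → (∀ t ∈ Ioo t1 t2, Q t = {l1}) →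
      (Q t1 = {l0, l1} ∧ Q t2 = {l1, l2} ∨ Q t1 = {l1, l2} ∧ Q t2 = {l0, l1}) →
      φ ∈ Icc t1 t2) : False := by
  refine a5 h.mirror h01 h12 h02 (by linarith) ?_ ?_ (φ := -φ) fun t1 t2 i1 i2 i3 hm he => ?_
  · rw [eventually_nhdsWithin_iff] at h0 ⊢
    have ht : Tendsto (fun t : ℝ => -t) (𝓝 (-b)) (𝓝 b) := by
      simpa using (continuous_neg.tendsto (-b))
    filter_upwards [ht.eventually h0] with t ht htb
    have htb' : -b < t := htb
    exact ht (show -t < b by linarith)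
  · rw [show -(-b + 1) = b - 1 by ring]
    exact h1
  · have := hP (-t2) (-t1) (by linarith) (by linarith) (by linarith)
      (fun t ht => by
        have := hm (-t) ⟨by linarith [ht.2], by linarith [ht.1]⟩
        rwa [neg_neg] at this)
      (by
        rcases he with ⟨e1, e2⟩ | ⟨e1, e2⟩
        · exact Or.inr ⟨e2, e1⟩
        · exact Or.inl ⟨e2, e1⟩)
    exact ⟨by linarith [this.2], by linarith [this.1]⟩

end Vale.Agent.P032.H273
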