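import Vale.Agent.P032.H273.RowK
import Vale.Agent.P032.H987.ExcL
import Vale.Agent.P032.H815.CzMOf
import Vale.Agent.P032.H383.KApex

/-!
# P032: neighbours of the M points, without the list; normal form of a unit triangle

World `XC U T`.  `mem_f273` : the points of order at least four on the circle of an `Md98` point have the
missing letter `f` (H987 `exc_list`).  `mem_e273` : the two-pair ones have the letter `e`.
`rowK273` : row K without `List98`.
`tri_norm273` : in a unit triangle `V, y1, y2` of two-pair points, `V` an `Md98` point, all three are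
`Md98` points, and the colours outside one of them are colours of the other two.
-/

open Set Filter Topology Metric

noncomputable section

namespace Vale.Agent.P032.H273

open Vale.Agent.P032.Six Vale.Agent.P032.S5.H767 Vale.Agent.P032.H383 Vale.Agent.P032.H800
  Vale.Agent.P032.S5.H349 Vale.Agent.P032.S5.H122 Vale.Agent.P032.Sweep
  Vale.Agent.P032.H98 Vale.Agent.P032.H987 Vale.Agent.P032.H815

variable {U : Fin 6 → Set ℂ} {T : ℂ → Set (Fin 6)} {V y y1 y2 : ℂ} {a b c d e f p q r s : Fin 6}

/-- a letter on the left -/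
theorem exists_ocL (h : Irr U T) (z : ℂ) (u : ℝ) (g : Set (Fin 6) → Fin 4) :
    ∃ l, ∃ᶠ v in 𝓝[<] u, v ∈ Oc T z g l := by
  by_contra hcon
  push Not at hcon
  have h1 : ∀ᶠ w in 𝓝[<] u, ∀ l : Fin 4, w ∉ Oc T z g l :=
    eventually_all.2 fun l => hcon l
  obtain ⟨w, hw, h2⟩ := exists_Lc_left h (z := z) h1
  exact h2 _ ⟨hw, rfl⟩

/-- a letter on the right -/
theorem exists_ocR (h : Irr U T) (z : ℂ) (u : ℝ) (g : Set (Fin 6) → Fin 4) :
    ∃ l, ∃ᶠ v in 𝓝[>] u, v ∈ Oc T z g l := by
  by_contra hcon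
  push Not at hcon
  have h1 : ∀ᶠ w in 𝓝[>] u, ∀ l : Fin 4, w ∉ Oc T z g l :=
    eventually_all.2 fun l => hcon l
  obtain ⟨w, hw, h2⟩ := exists_Lc_right h (z := z) h1
  exact h2 _ ⟨hw, rfl⟩

theorem mem_of_freqL (h : Irr U T) {z : ℂ} {u : ℝ} {i : Fin 6}
    (hf : ∃ᶠ v in 𝓝[<] u, i ∈ T (pt z v)) : i ∈ T (pt z u) := by
  have hcl : IsClosed {v : ℝ | i ∈ T (pt z v)} := (h.closed i).preimage (continuous_pt z)
  exact hcl.mem_of_frequently_of_tendsto hf (tendsto_id.mono_left nhdsWithin_le_nhds)

theorem mem_of_freqR (h : Irr U T) {z : ℂ} {u : ℝ} {i : Fin 6}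
    (hf : ∃ᶠ v in 𝓝[>] u, i ∈ T (pt z v)) : i ∈ T (pt z u) := by
  have hcl : IsClosed {v : ℝ | i ∈ T (pt z v)} := (h.closed i).preimage (continuous_pt z)
  exact hcl.mem_of_frequently_of_tendsto hf (tendsto_id.mono_left nhdsWithin_le_nhds)

theorem lt98_one {P : Set (Fin 6)} (h : lt98 a b e f P = 1) : f ∈ P := by
  unfold lt98 at h
  split_ifs at h with h1 h2 h3
  · exact absurd h (by decide)
  · exact h2
  · exact absurd h (by decide)
  · exact absurd h (by decide)

/-- **the missing letter of the mode is a colour of the neighbours of order at least four** -/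
theorem mem_f273 (X : XC U T) (M : Md98 T V a b c d e f) (hy : dist y V = 1)
    (h4 : 4 ≤ (T y).ncard) : f ∈ T y := by
  have h := X.df.irr
  have hV4 : 4 ≤ (T V).ncard := M.dpt.ncard.ge
  obtain ⟨y2, o1⟩ := second273 hy h4 fun y1 y2 y3 => X.n3 V y1 y2 y3 hV4
  obtain ⟨p, q, Z⟩ := exists_zn815 h M.dpt
  have S := czM_of_mode815 X.df M.dpt M.nd M.hA M.hC
  obtain ⟨-, -, -, hL⟩ := exc_list S Z o1
  obtain ⟨u, hu⟩ := Vale.Agent.P032.S5.H349.exists_pt hy
  subst hu
  obtain ⟨l, hl⟩ := exists_ocL h V u (lt98 a b e f)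
  obtain ⟨m, hm⟩ := exists_ocR h V u (lt98 a b e f)
  rcases hL u h4 l m hl hm with ⟨h1, -⟩ | ⟨-, h1⟩
  · subst h1
    exact mem_of_freqL h (hl.mono fun v hv => lt98_one hv.2)
  · subst h1
    exact mem_of_freqR h (hm.mono fun v hv => lt98_one hv.2)

/-- **row K without the list** -/
theorem rowK273 (X : XC U T) (M : Md98 T V a b c d e f) (hyV : dist y V = 1)
    (hD : DPt T y a c d f) : False := by
  have h := X.df.irr
  have hVy : dist V y = 1 := by rw [dist_comm]; exact hyV
  have hV4 : 4 ≤ (T V).ncard := M.dpt.ncard.ge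
  have hy4 : 4 ≤ (T y).ncard := hD.ncard.ge
  have nV := fun y1 y2 y3 => X.n3 V y1 y2 y3 hV4
  have ny := fun y1 y2 y3 => X.n3 y y1 y2 y3 hy4
  obtain ⟨⟨ab, ac, ad, ae, af⟩, ⟨bc, bd, be, bf⟩, ⟨cd, ce, cf⟩, ⟨de, df⟩, ef⟩ := nd_all353 M.nd
  have hfA : ∀ p ∈ closure (Ex T V {a, b}), (T p).ncard ≤ 3 → f ∉ T p := by
    intro p hp h3 hf
    rcases M.hA p hp h3 with h4 | h4 <;> rw [h4] at hf
    · rcases hf with h5 | h5
      · exact af h5.symm
      · exact bf h5.symm
    · rcases hf with h5 | h5 | h5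
      · exact af h5.symm
      · exact bf h5.symm
      · exact ef h5.symm
  have hfC : ∀ p ∈ closure (Ex T V {c, d}), (T p).ncard ≤ 3 → f ∉ T p := by
    intro p hp h3 hf
    rcases M.hC p hp h3 with h4 | h4 <;> rw [h4] at hf
    · rcases hf with h5 | h5
      · exact cf h5.symm
      · exact df h5.symm
    · rcases hf with h5 | h5 | h5
      · exact cf h5.symm
      · exact df h5.symm
      · exact ef h5.symm
  rcases H79.modes79 h X.nc hD (nd_k1 M.nd) with h1 | h1 | ⟨g, g', hg, h2, h3, h4, h5⟩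
  · exact no_k_end273 h M.dpt hD M.nd hVy (H79.pf_of_free79 h hD h1) hfA ny nV
  · exact no_pf_df273 h M.dpt hD M.nd hVy (H79.pf_of_free79 h hD.swap h1) ny
  · rcases hg with ⟨rfl, rfl⟩ | ⟨rfl, rfl⟩
    · -- mode `M_b` of `y`: `e` would be a colour of `V`
      exact (H961.free_notMem M.dpt M.nd).1
        (mem_f273 X ⟨hD, nd_k1 M.nd, h2, h3, h4, h5⟩ hVy hV4)
    · -- mode `M_e` of `y`
      have hgA : ∀ p ∈ closure (Ex T y {a, c}), (T p).ncard ≤ 3 → g' ∉ T p := by
        intro p hp h3 hb
        rcases h4 p hp h3 with h6 | h6 <;> rw [h6] at hb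
        · rcases hb with h7 | h7
          · exact ab h7.symm
          · exact bc h7
        · rcases hb with h7 | h7 | h7
          · exact ab h7.symm
          · exact bc h7
          · exact be h7
      have hgQ : ∀ p ∈ closure (Ex T y {d, f}), (T p).ncard ≤ 3 → g' ∉ T p := by
        intro p hp h3 hb
        rcases h5 p hp h3 with h6 | h6 <;> rw [h6] at hb
        · rcases hb with h7 | h7
          · exact bd h7
          · exact bf h7
        · rcases hb with h7 | h7 | h7
          · exact bd h7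
          · exact bf h7
          · exact be h7
      obtain ⟨y2, o1⟩ := second273 hyV hy4 nV
      obtain ⟨y1, o2⟩ := second273 hVy hV4 ny
      exact k4_824 h M.nd M.dpt hD hyV hfA hfC hgA hgQ o1 o2

/-- row K without the list, one colour fixed -/
theorem rowK_aux273 (X : XC U T) (M : Md98 T V a b c d e f)
    (hy : dist y V = 1) (hD : DPt T y p q d f) (hp : p = a ∨ p = b ∨ p = c)
    (hq : q = a ∨ q = b ∨ q = c) : False := by
  rcases hp with rfl | rfl | rfl <;> rcases hq with rfl | rfl | rfl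
  · exact hD.ab rfl
  · exact no_common98 X.df.irr M.dpt.swap.swap12 hy hD
  · exact rowK273 X M hy hD
  · exact no_common98 X.df.irr M.dpt.swap.swap12 hy hD.swap12
  · exact hD.ab rfl
  · exact rowK273 X M.swap12 hy hD
  · exact rowK273 X M hy hD.swap12
  · exact rowK273 X M.swap12 hy hD.swap12
  · exact hD.ab rfl

/-- row K without the list: all the neighbours without the colour `e` -/
theorem rowK_all273 (X : XC U T) (M : Md98 T V a b c d e f)
    (hy : dist y V = 1) (hD : DPt T y p q r f) (he : e ∉ T y) : False := by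
  have hpT : p ∈ T y := by rw [hD.pal]; simp
  have hqT : q ∈ T y := by rw [hD.pal]; simp
  have hrT : r ∈ T y := by rw [hD.pal]; simp
  have hpe : p ≠ e := fun h => he (h ▸ hpT)
  have hqe : q ≠ e := fun h => he (h ▸ hqT)
  have hre : r ≠ e := fun h => he (h ▸ hrT)
  have hpf : p ≠ f := hD.ad
  have hqf : q ≠ f := hD.bd
  have hrf : r ≠ f := hD.cd
  have hpr : p ≠ r := hD.ac
  have hqr : q ≠ r := hD.bc
  rcases M.all X r with h | h | h | h | h | h
  · subst h
    refine rowK_aux273 X M.swap.swap34 hy hD ?_ ?_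
    · rcases M.all X p with h | h | h | h | h | h
      · exact absurd h hpr
      · exact Or.inr (Or.inr h)
      · exact Or.inl h
      · exact Or.inr (Or.inl h)
      · exact absurd h hpe
      · exact absurd h hpf
    · rcases M.all X q with h | h | h | h | h | h
      · exact absurd h hqr
      · exact Or.inr (Or.inr h)
      · exact Or.inl h
      · exact Or.inr (Or.inl h)
      · exact absurd h hqe
      · exact absurd h hqf
  · subst h
    refine rowK_aux273 X M.swap hy hD ?_ ?_
    · rcases M.all X p with h | h | h | h | h | h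
      · exact Or.inr (Or.inr h)
      · exact absurd h hpr
      · exact Or.inl h
      · exact Or.inr (Or.inl h)
      · exact absurd h hpe
      · exact absurd h hpf
    · rcases M.all X q with h | h | h | h | h | h
      · exact Or.inr (Or.inr h)
      · exact absurd h hqr
      · exact Or.inl h
      · exact Or.inr (Or.inl h)
      · exact absurd h hqe
      · exact absurd h hqf
  · subst h
    refine rowK_aux273 X M.swap34 hy hD ?_ ?_
    · rcases M.all X p with h | h | h | h | h | h
      · exact Or.inl h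
      · exact Or.inr (Or.inl h)
      · exact absurd h hpr
      · exact Or.inr (Or.inr h)
      · exact absurd h hpe
      · exact absurd h hpf
    · rcases M.all X q with h | h | h | h | h | h
      · exact Or.inl h
      · exact Or.inr (Or.inl h)
      · exact absurd h hqr
      · exact Or.inr (Or.inr h)
      · exact absurd h hqe
      · exact absurd h hqf
  · subst h
    refine rowK_aux273 X M hy hD ?_ ?_
    · rcases M.all X p with h | h | h | h | h | h
      · exact Or.inl h
      · exact Or.inr (Or.inl h)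
      · exact Or.inr (Or.inr h)
      · exact absurd h hpr
      · exact absurd h hpe
      · exact absurd h hpf
    · rcases M.all X q with h | h | h | h | h | h
      · exact Or.inl h
      · exact Or.inr (Or.inl h)
      · exact Or.inr (Or.inr h)
      · exact absurd h hqr
      · exact absurd h hqe
      · exact absurd h hqf
  · exact absurd h hre
  · exact absurd h hrf

/-- **the plain letter of the mode is a colour of the two-pair neighbours** -/
theorem mem_e273 (X : XC U T) (M : Md98 T V a b c d e f) (hy : dist y V = 1)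
    (hD : DPt T y p q r s) : e ∈ T y := by
  by_contra he
  have hf : f ∈ T y := mem_f273 X M hy hD.ncard.ge
  rw [hD.pal] at hf
  rcases hf with h | h | h | h
  · subst h; exact rowK_all273 X M hy hD.swap.swap34 he
  · subst h; exact rowK_all273 X M hy hD.swap he
  · subst h; exact rowK_all273 X M hy hD.swap34 he
  · rw [mem_singleton_iff] at h
    subst h; exact rowK_all273 X M hy hD he

/-- an M point -/
def IsM273 (T : ℂ → Set (Fin 6)) (V : ℂ) (a b c d : Fin 6) : Prop :=
  ∃ e f, Md98 T V a b c d e f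

/-- the trichotomy of the modes -/
theorem modes273 (X : XC U T) (hV : DPt T V a b c d) :
    H383.Pf T V a b ∨ H383.Pf T V c d ∨ IsM273 T V a b c d := by
  obtain ⟨e, f, nd⟩ := hV.exists_nodup
  rcases H79.modes79 X.df.irr X.nc hV nd with h1 | h1 | ⟨g, g', hg, h2, h3, h4, h5⟩
  · exact Or.inl (H79.pf_of_free79 X.df.irr hV h1)
  · exact Or.inr (Or.inl (H79.pf_of_free79 X.df.irr hV.swap h1))
  · refine Or.inr (Or.inr ⟨g, g', hV, ?_, h2, h3, h4, h5⟩)
    rcases hg with ⟨rfl, rfl⟩ | ⟨rfl, rfl⟩
    · exact nd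
    · simp only [List.nodup_cons, List.mem_cons, List.not_mem_nil, or_false, not_or,
        List.nodup_nil, and_true, not_false_eq_true] at nd ⊢
      obtain ⟨⟨ab, ac, ad, ae, af⟩, ⟨bc, bd, be, bf⟩, ⟨cd, ce, cf⟩, ⟨de, df⟩, ef⟩ := nd
      exact ⟨⟨ab, ac, ad, af, ae⟩, ⟨bc, bd, bf, be⟩, ⟨cd, cf, ce⟩, ⟨df, de⟩, Ne.symm ef⟩

/-- at an M point the colours outside are colours of the two-pair neighbours -/
theorem IsM273.out (X : XC U T) (M : IsM273 T V a b c d) (hy : dist y V = 1)
    (hD : DPt T y p q r s) {i : Fin 6} (hi : i ∉ T V) : i ∈ T y := by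
  obtain ⟨e, f, M⟩ := M
  have hpal := M.dpt.pal
  rcases M.all X i with h | h | h | h | h | h
  · exact absurd (by rw [hpal, h]; simp) hi
  · exact absurd (by rw [hpal, h]; simp) hi
  · exact absurd (by rw [hpal, h]; simp) hi
  · exact absurd (by rw [hpal, h]; simp) hi
  · exact h ▸ mem_e273 X M hy hD
  · exact h ▸ mem_f273 X M hy hD.ncard.ge

/-! ### The normal form of a unit triangle -/

/-- the ends of the arc of a pair without plain ends -/
theorem pf_ends273 (X : XC U T) (h1 : DPt T y p q r s) (hp : H383.Pf T y p q)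
    (dV : dist V y = 1) (hV4 : 4 ≤ (T V).ncard) : p ∈ T V ∧ q ∈ T V := by
  obtain ⟨s', t', -, -, -, -, hs, ht, hord⟩ := one_arc169 X.df.irr h1 hp
    fun y1 y2 y3 => X.n3 y y1 y2 y3 h1.ncard.ge
  rcases hord V dV hV4 with h2 | h2
  · exact h2 ▸ hs.2
  · exact h2 ▸ ht.2

theorem four_eq273 {S : Set (Fin 6)} (hS : S.ncard ≤ 4) {p q e f : Fin 6} (hp : p ∈ S) (hq : q ∈ S)
    (he : e ∈ S) (hf : f ∈ S) (hn : [p, q, e, f].Nodup) : S = {p, q, e, f} := by
  symm
  refine Set.eq_of_subset_of_ncard_le ?_ ?_ (Set.toFinite _)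
  · rintro i (rfl | rfl | rfl | rfl) <;> assumption
  · simp only [List.nodup_cons, List.mem_cons, List.not_mem_nil, or_false, not_or,
      List.nodup_nil, and_true, not_false_eq_true] at hn
    obtain ⟨⟨pq, pe, pf⟩, ⟨qe, qf⟩, ef⟩ := hn
    rw [Set.ncard_insert_of_notMem, Set.ncard_insert_of_notMem, Set.ncard_pair ef]
    · exact hS
    · simp only [mem_insert_iff, mem_singleton_iff, not_or]; exact ⟨qe, qf⟩
    · simp only [mem_insert_iff, mem_singleton_iff, not_or]; exact ⟨pq, pe, pf⟩

/-- the colours of the palette of a two-pair point, except two of them -/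
theorem other_pair273 (h1 : DPt T y p q r s) (hT : T y = {p, q, e, f}) :
    (r = e ∨ r = f) ∧ (s = e ∨ s = f) := by
  have hr : r ∈ T y := by rw [h1.pal]; simp
  have hs : s ∈ T y := by rw [h1.pal]; simp
  rw [hT] at hr hs
  constructor
  · rcases hr with h | h | h | h
    · exact absurd h.symm h1.ac
    · exact absurd h.symm h1.bc
    · exact Or.inl h
    · exact Or.inr h
  · rcases hs with h | h | h | h
    · exact absurd h.symm h1.ad
    · exact absurd h.symm h1.bd
    · exact Or.inl h
    · exact Or.inr h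

/-- the two neighbours have no pair without plain ends -/
theorem no_pf_tri273 (X : XC U T) (M : Md98 T V a b c d e f) (d1 : dist y1 V = 1)
    (d2 : dist y2 V = 1) (d12 : dist y1 y2 = 1) (h1 : DPt T y1 p q r s)
    (hp : H383.Pf T y1 p q) {p2 q2 r2 s2 : Fin 6} (h2 : DPt T y2 p2 q2 r2 s2) : False := by
  obtain ⟨heV, hfV⟩ := H961.free_notMem M.dpt M.nd
  have hV4 : 4 ≤ (T V).ncard := M.dpt.ncard.ge
  have d21 : dist y2 y1 = 1 := by rw [dist_comm]; exact d12
  have e1 := mem_e273 X M d1 h1
  have f1 := mem_f273 X M d1 h1.ncard.ge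
  have e2 := mem_e273 X M d2 h2
  have f2 := mem_f273 X M d2 h2.ncard.ge
  obtain ⟨pV, qV⟩ := pf_ends273 X h1 hp (by rw [dist_comm]; exact d1) hV4
  obtain ⟨p2', q2'⟩ := pf_ends273 X h1 hp d21 h2.ncard.ge
  have p1 : p ∈ T y1 := by rw [h1.pal]; simp
  have q1 : q ∈ T y1 := by rw [h1.pal]; simp
  have ef : e ≠ f := (nd_all353 M.nd).2.2.2.2
  have hn : [p, q, e, f].Nodup := by
    simp only [List.nodup_cons, List.mem_cons, List.not_mem_nil, or_false, not_or,
      List.nodup_nil, and_true, not_false_eq_true]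
    exact ⟨⟨h1.ab, fun h => heV (h ▸ pV), fun h => hfV (h ▸ pV)⟩,
      ⟨fun h => heV (h ▸ qV), fun h => hfV (h ▸ qV)⟩, ef⟩
  have hT1 : T y1 = {p, q, e, f} := four_eq273 h1.ncard.le p1 q1 e1 f1 hn
  have hT2 : T y2 = {p, q, e, f} := four_eq273 h2.ncard.le p2' q2' e2 f2 hn
  obtain ⟨hr, hs⟩ := other_pair273 h1 hT1
  -- a pair of `y2` without plain ends is `{p, q}`
  have key : ∀ {p2 q2 r2 s2 : Fin 6}, DPt T y2 p2 q2 r2 s2 → H383.Pf T y2 p2 q2 → False := by
    intro p2 q2 r2 s2 h2 hp2
    obtain ⟨pV', qV'⟩ := pf_ends273 X h2 hp2 (by rw [dist_comm]; exact d2) hV4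
    have hp2T : p2 ∈ T y2 := by rw [h2.pal]; simp
    have hq2T : q2 ∈ T y2 := by rw [h2.pal]; simp
    have hpc : p2 = p ∨ p2 = q := by
      rw [hT2] at hp2T
      rcases hp2T with h | h | h | h
      · exact Or.inl h
      · exact Or.inr h
      · exact absurd (h ▸ pV') heV
      · exact absurd (h ▸ pV') hfV
    have hqc : q2 = p ∨ q2 = q := by
      rw [hT2] at hq2T
      rcases hq2T with h | h | h | h
      · exact Or.inl h
      · exact Or.inr h
      · exact absurd (h ▸ qV') heV
      · exact absurd (h ▸ qV') hfV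
    have h2' : ∃ r2 s2, DPt T y2 p q r2 s2 := by
      rcases hpc with h | h <;> rcases hqc with h' | h'
      · exact absurd (h.trans h'.symm) h2.ab
      · subst h; subst h'; exact ⟨_, _, h2⟩
      · subst h; subst h'; exact ⟨_, _, h2.swap12⟩
      · exact absurd (h.trans h'.symm) h2.ab
    obtain ⟨r3, s3, h3⟩ := h2'
    obtain ⟨hr3, hs3⟩ := other_pair273 h3 hT2
    have hrc : r3 = r ∨ s3 = r := by
      rcases hr with h | h <;> rcases hr3 with h' | h' <;> rcases hs3 with h'' | h''
      · exact absurd (h'.trans h''.symm) h3.cd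
      · exact Or.inl (h'.trans h.symm)
      · exact Or.inr (h''.trans h.symm)
      · exact absurd (h'.trans h''.symm) h3.cd
      · exact absurd (h'.trans h''.symm) h3.cd
      · exact Or.inr (h''.trans h.symm)
      · exact Or.inl (h'.trans h.symm)
      · exact absurd (h'.trans h''.symm) h3.cd
    rcases hrc with h | h
    · subst h
      exact no_common98 X.df.irr h1.swap d21 h3
    · subst h
      exact no_common98 X.df.irr h1.swap d21 h3.swap34
  rcases modes273 X h2 with h3 | h3 | h3
  · exact key h2 h3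
  · exact key h2.swap h3
  · obtain ⟨i, j, nd⟩ := h2.exists_nodup
    have hi := (H961.free_notMem h2 nd).1
    have := h3.out X d12 h1 hi
    rw [hT1, ← hT2] at this
    exact hi this

/-- **the normal form of a unit triangle** -/
theorem tri_norm273 (X : XC U T) (M : Md98 T V a b c d e f) (d1 : dist y1 V = 1)
    (d2 : dist y2 V = 1) (d12 : dist y1 y2 = 1) (h1 : DPt T y1 p q r s)
    {p2 q2 r2 s2 : Fin 6} (h2 : DPt T y2 p2 q2 r2 s2) :
    IsM273 T y1 p q r s ∧ IsM273 T y2 p2 q2 r2 s2 ∧ (∀ i, i ∉ T V → i ∈ T y1 ∧ i ∈ T y2) ∧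
      (∀ i, i ∉ T y1 → i ∈ T V ∧ i ∈ T y2) ∧ ∀ i, i ∉ T y2 → i ∈ T V ∧ i ∈ T y1 := by
  have d21 : dist y2 y1 = 1 := by rw [dist_comm]; exact d12
  have d1' : dist V y1 = 1 := by rw [dist_comm]; exact d1
  have d2' : dist V y2 = 1 := by rw [dist_comm]; exact d2
  have m1 : IsM273 T y1 p q r s := by
    rcases modes273 X h1 with h3 | h3 | h3
    · exact (no_pf_tri273 X M d1 d2 d12 h1 h3 h2).elim
    · exact (no_pf_tri273 X M d1 d2 d12 h1.swap h3 h2).elim
    · exact h3
  have m2 : IsM273 T y2 p2 q2 r2 s2 := by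
    rcases modes273 X h2 with h3 | h3 | h3
    · exact (no_pf_tri273 X M d2 d1 d21 h2 h3 h1).elim
    · exact (no_pf_tri273 X M d2 d1 d21 h2.swap h3 h1).elim
    · exact h3
  have m0 : IsM273 T V a b c d := ⟨e, f, M⟩
  exact ⟨m1, m2, fun i hi => ⟨m0.out X d1 h1 hi, m0.out X d2 h2 hi⟩,
    fun i hi => ⟨m1.out X d1' M.dpt hi, m1.out X d21 h2 hi⟩,
    fun i hi => ⟨m2.out X d2' M.dpt hi, m2.out X d12 h1 hi⟩⟩

end Vale.Agent.P032.H273
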