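import Vale.Agent.P032.H273.TriNorm
import Vale.Agent.P032.H492.Branch

/-!
# P032: no unit triangle at an M point (row T of the theorem on modes)

World `XC U T`.  `FlipE273` : at a neighbour `y` of an `Md98` point `V` which is not in the closures of
the exact arcs of the pairs of `V`, with the second point of order at least four `y2` adjacent to `y`,
the other apex `V + y - y2` has both letters `e`, `f`.

`rowTri273 : FlipE273 → RowHarm98 → RowTri98`.
-/

open Set Filter Topology Metric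

noncomputable section

namespace Vale.Agent.P032.H273

open Vale.Agent.P032.Six Vale.Agent.P032.S5.H767 Vale.Agent.P032.H383 Vale.Agent.P032.H800
  Vale.Agent.P032.H98

variable {U : Fin 6 → Set ℂ} {T : ℂ → Set (Fin 6)} {V V1 V2 V3 y y1 y2 : ℂ}
  {a b c d e f p q r s : Fin 6}

/-- the flips at a unit triangle -/
def FlipE273 : Prop := ∀ (U : Fin 6 → Set ℂ) (T : ℂ → Set (Fin 6)), XC U T →
  ∀ V a b c d e f, Md98 T V a b c d e f → ∀ y y2, dist y V = 1 → dist y2 V = 1 → dist y y2 = 1 →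
    4 ≤ (T y).ncard → 4 ≤ (T y2).ncard → y ∉ closure (Ex T V {a, b}) →
    y ∉ closure (Ex T V {c, d}) → e ∈ T (V + y - y2) ∧ f ∈ T (V + y - y2)

/-- the outer apex of a unit triangle has at most three colours -/
theorem outer273 (X : XC U T) (h0 : 4 ≤ (T V1).ncard) (h1 : 4 ≤ (T V2).ncard)
    (h2 : 4 ≤ (T V3).ncard) (d12 : dist V2 V1 = 1) (d13 : dist V3 V1 = 1) (d23 : dist V2 V3 = 1) :
    (T (V1 + V2 - V3)).ncard ≤ 3 := by
  by_contra hcon
  push Not at hcon
  have hg1 : dist (V1 + V2 - V3) V1 = 1 := by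
    rw [← d23, dist_eq_norm, dist_eq_norm]; congr 1; ring
  rcases X.n3 V1 V2 V3 (V1 + V2 - V3) h0 d12 d13 hg1 h1 h2 hcon with k | k | k
  · rw [k] at d23
    simp at d23
  · have : V1 = V3 := by linear_combination -k
    rw [this] at d13
    simp at d13
  · have k1 : V2 - V1 = 2 * (V3 - V1) := by linear_combination -k
    have k2 : ‖V2 - V1‖ = 2 * ‖V3 - V1‖ := by rw [k1, norm_mul]; norm_num
    rw [← dist_eq_norm, ← dist_eq_norm, d12, d13] at k2
    norm_num at k2

/-- the closures of the exact arcs of `V` do not contain `y` -/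
def G273 (T : ℂ → Set (Fin 6)) (V y : ℂ) (a b c d : Fin 6) : Prop :=
  y ∉ closure (Ex T V {a, b}) ∧ y ∉ closure (Ex T V {c, d})

/-- one pair of `V` is the set of the common colours of `V` and `y` -/
def Pu273 (T : ℂ → Set (Fin 6)) (V y : ℂ) (a b c d : Fin 6) : Prop :=
  ({a, b} : Set (Fin 6)) = T V ∩ T y ∨ ({c, d} : Set (Fin 6)) = T V ∩ T y

/-- an edge with flips at both ends -/
theorem edge273 (F : FlipE273) (X : XC U T) (m1 : IsM273 T V1 a b c d) (m2 : IsM273 T V2 p q r s)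
    (h3 : 4 ≤ (T V3).ncard) (d12 : dist V2 V1 = 1) (d13 : dist V3 V1 = 1) (d23 : dist V2 V3 = 1)
    (g1 : G273 T V1 V2 a b c d) (g2 : G273 T V2 V1 p q r s) (hu : ∀ x, x ∉ T V1 → x ∈ T V2) :
    False := by
  obtain ⟨e, f, M1⟩ := m1
  obtain ⟨e', f', M2⟩ := m2
  have h1 : 4 ≤ (T V1).ncard := M1.dpt.ncard.ge
  have h2 : 4 ≤ (T V2).ncard := M2.dpt.ncard.ge
  have d12' : dist V1 V2 = 1 := by rw [dist_comm]; exact d12
  have d13' : dist V1 V3 = 1 := by rw [dist_comm]; exact d13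
  have d23' : dist V3 V2 = 1 := by rw [dist_comm]; exact d23
  obtain ⟨k1, k2⟩ := F U T X V1 a b c d e f M1 V2 V3 d12 d13 d23 h2 h3 g1.1 g1.2
  obtain ⟨k3, k4⟩ := F U T X V2 p q r s e' f' M2 V1 V3 d12' d23' d13' h1 h3 g2.1 g2.2
  have e1 : V2 + V1 - V3 = V1 + V2 - V3 := by ring
  rw [e1] at k3 k4
  obtain ⟨he, hf⟩ := H961.free_notMem M1.dpt M1.nd
  obtain ⟨he', hf'⟩ := H961.free_notMem M2.dpt M2.nd
  have ef : e ≠ f := (nd_all353 M1.nd).2.2.2.2
  have ef' : e' ≠ f' := (nd_all353 M2.nd).2.2.2.2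
  have h4 := outer273 X h1 h2 h3 d12 d13 d23
  refine H460.not_four460 h4 k1 k2 k3 k4 ?_
  simp only [List.nodup_cons, List.mem_cons, List.not_mem_nil, or_false, not_or,
    List.nodup_nil, and_true, not_false_eq_true]
  exact ⟨⟨ef, fun h => he' (h ▸ hu e he), fun h => hf' (h ▸ hu e he)⟩,
    ⟨fun h => he' (h ▸ hu f hf), fun h => hf' (h ▸ hu f hf)⟩, ef'⟩

/-- two common colours -/
theorem inter273 (hi : (T V).ncard = 4) (hj : (T y).ncard = 4) (hu : ∀ x, x ∉ T V → x ∈ T y) :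
    (T V ∩ T y).ncard = 2 := by
  have h1 := Set.ncard_union_add_ncard_inter (T V) (T y) (Set.toFinite _) (Set.toFinite _)
  have h2 : T V ∪ T y = univ := by
    ext x
    simp only [mem_union, mem_univ, iff_true]
    by_cases hx : x ∈ T V
    · exact Or.inl hx
    · exact Or.inr (hu x hx)
  rw [h2, hi, hj, Set.ncard_univ, Nat.card_eq_fintype_card, Fintype.card_fin] at h1
  omega

theorem g_or273 (h : Irr U T) (hV : DPt T V a b c d) (hc : (T V ∩ T y).ncard = 2) :
    G273 T V y a b c d ∨ Pu273 T V y a b c d := by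
  by_contra hcon
  rw [not_or] at hcon
  obtain ⟨h1, h2⟩ := hcon
  have key : ∀ x x' : Fin 6, x ≠ x' → x ∈ T V → x' ∈ T V → y ∈ closure (Ex T V {x, x'}) →
      ({x, x'} : Set (Fin 6)) = T V ∩ T y := by
    intro x x' hxx hx hx' hcl
    refine Set.eq_of_subset_of_ncard_le ?_ ?_ (Set.toFinite _)
    · intro i hi
      refine ⟨?_, sub_of_closure h hcl hi⟩
      rcases hi with hi | hi
      · exact hi ▸ hx
      · rw [mem_singleton_iff] at hi
        exact hi ▸ hx'
    · rw [hc, Set.ncard_pair hxx]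
  have ha : a ∈ T V := by rw [hV.pal]; simp
  have hb : b ∈ T V := by rw [hV.pal]; simp
  have hcc : c ∈ T V := by rw [hV.pal]; simp
  have hd : d ∈ T V := by rw [hV.pal]; simp
  by_cases k1 : y ∈ closure (Ex T V {a, b})
  · exact h2 (Or.inl (key a b hV.ab ha hb k1))
  · by_cases k2 : y ∈ closure (Ex T V {c, d})
    · exact h2 (Or.inr (key c d hV.cd hcc hd k2))
    · exact h1 ⟨k1, k2⟩

/-- a common pair -/
theorem pu_pu273 (h : Irr U T) (hV : DPt T V a b c d) (hy : DPt T y p q r s)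
    (hc : (T V ∩ T y).ncard = 2) (h2 : Pu273 T y V p q r s) : G273 T V y a b c d := by
  obtain ⟨g, hg, hgT⟩ : ∃ g, dist g y = 1 ∧ T g = T V ∩ T y := by
    rcases h2 with h2 | h2
    · obtain ⟨g, hg, hgJ⟩ := hy.arc1
      exact ⟨g, hg, by rw [hgJ.self_of_nhdsWithin hg, h2, Set.inter_comm]⟩
    · obtain ⟨g, hg, hgJ⟩ := hy.arc2
      exact ⟨g, hg, by rw [hgJ.self_of_nhdsWithin hg, h2, Set.inter_comm]⟩
  have key : ∀ x x' : Fin 6, x ≠ x' → x ∈ T V → x' ∈ T V → y ∉ closure (Ex T V {x, x'}) := by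
    intro x x' hxx hx hx' hcl
    have h3 : ({x, x'} : Set (Fin 6)) = T V ∩ T y := by
      refine Set.eq_of_subset_of_ncard_le ?_ ?_ (Set.toFinite _)
      · intro i hi
        refine ⟨?_, sub_of_closure h hcl hi⟩
        rcases hi with hi | hi
        · exact hi ▸ hx
        · rw [mem_singleton_iff] at hi
          exact hi ▸ hx'
      · rw [hc, Set.ncard_pair hxx]
    exact h.not_pair492 (P := {x, x'}) (by rw [Set.ncard_pair hxx]; omega)
      (closure_mono (fun w hw => ex_self hw) hcl) hg (hgT.trans h3.symm)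
  have ha : a ∈ T V := by rw [hV.pal]; simp
  have hb : b ∈ T V := by rw [hV.pal]; simp
  have hcc : c ∈ T V := by rw [hV.pal]; simp
  have hd : d ∈ T V := by rw [hV.pal]; simp
  exact ⟨key a b hV.ab ha hb, key c d hV.cd hcc hd⟩

/-- purity does not depend on the neighbour -/
theorem pu_tr273 (hV : DPt T V a b c d) (hc2 : (T V ∩ T y2).ncard = 2)
    (hu : ∀ x, x ∉ T y1 → x ∈ T y2) (h1 : Pu273 T V y1 a b c d) : Pu273 T V y2 a b c d := by
  have ha : a ∈ T V := by rw [hV.pal]; simp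
  have hb : b ∈ T V := by rw [hV.pal]; simp
  have hcc : c ∈ T V := by rw [hV.pal]; simp
  have hd : d ∈ T V := by rw [hV.pal]; simp
  rcases h1 with h1 | h1
  · right
    have k1 : c ∉ T y1 := fun h => by
      have : c ∈ ({a, b} : Set (Fin 6)) := h1 ▸ ⟨hcc, h⟩
      rcases this with k | k
      · exact hV.ac k.symm
      · rw [mem_singleton_iff] at k; exact hV.bc k.symm
    have k2 : d ∉ T y1 := fun h => by
      have : d ∈ ({a, b} : Set (Fin 6)) := h1 ▸ ⟨hd, h⟩
      rcases this with k | k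
      · exact hV.ad k.symm
      · rw [mem_singleton_iff] at k; exact hV.bd k.symm
    refine Set.eq_of_subset_of_ncard_le ?_ ?_ (Set.toFinite _)
    · intro i hi
      rcases hi with hi | hi
      · exact hi ▸ ⟨hcc, hu c k1⟩
      · rw [mem_singleton_iff] at hi
        exact hi ▸ ⟨hd, hu d k2⟩
    · rw [hc2, Set.ncard_pair hV.cd]
  · left
    have k1 : a ∉ T y1 := fun h => by
      have : a ∈ ({c, d} : Set (Fin 6)) := h1 ▸ ⟨ha, h⟩
      rcases this with k | k
      · exact hV.ac k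
      · rw [mem_singleton_iff] at k; exact hV.ad k
    have k2 : b ∉ T y1 := fun h => by
      have : b ∈ ({c, d} : Set (Fin 6)) := h1 ▸ ⟨hb, h⟩
      rcases this with k | k
      · exact hV.bc k
      · rw [mem_singleton_iff] at k; exact hV.bd k
    refine Set.eq_of_subset_of_ncard_le ?_ ?_ (Set.toFinite _)
    · intro i hi
      rcases hi with hi | hi
      · exact hi ▸ ⟨ha, hu a k1⟩
      · rw [mem_singleton_iff] at hi
        exact hi ▸ ⟨hb, hu b k2⟩
    · rw [hc2, Set.ncard_pair hV.ab]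

theorem parity273 {A B C D E F : Prop} (k01 : A ↔ ¬ C) (k02 : B ↔ ¬ E) (k12 : D ↔ ¬ F)
    (t0 : A ↔ B) (t1 : C ↔ D) (t2 : E ↔ F) : False := by tauto

/-- **no unit triangle of two-pair points at an M point** -/
theorem tri273 (F : FlipE273) (X : XC U T) (M : Md98 T V a b c d e f) (d1 : dist y1 V = 1)
    (d2 : dist y2 V = 1) (d12 : dist y1 y2 = 1) (h1 : DPt T y1 p q r s)
    {p2 q2 r2 s2 : Fin 6} (h2 : DPt T y2 p2 q2 r2 s2) : False := by
  have h := X.df.irr
  obtain ⟨m1, m2, u0, u1, u2⟩ := tri_norm273 X M d1 d2 d12 h1 h2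
  have m0 : IsM273 T V a b c d := ⟨e, f, M⟩
  have hV := M.dpt
  have nV := hV.ncard
  have n1 := h1.ncard
  have n2 := h2.ncard
  have d1' : dist V y1 = 1 := by rw [dist_comm]; exact d1
  have d2' : dist V y2 = 1 := by rw [dist_comm]; exact d2
  have d21 : dist y2 y1 = 1 := by rw [dist_comm]; exact d12
  have c01 := inter273 nV n1 fun x hx => (u0 x hx).1
  have c02 := inter273 nV n2 fun x hx => (u0 x hx).2
  have c12 := inter273 n1 n2 fun x hx => (u1 x hx).2
  have c10 : (T y1 ∩ T V).ncard = 2 := by rw [Set.inter_comm]; exact c01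
  have c20 : (T y2 ∩ T V).ncard = 2 := by rw [Set.inter_comm]; exact c02
  have c21 : (T y2 ∩ T y1).ncard = 2 := by rw [Set.inter_comm]; exact c12
  -- the three edges
  have e01 : ¬ (G273 T V y1 a b c d ∧ G273 T y1 V p q r s) := fun k =>
    edge273 F X m0 m1 n2.ge d1 d2 d12 k.1 k.2 fun x hx => (u0 x hx).1
  have e02 : ¬ (G273 T V y2 a b c d ∧ G273 T y2 V p2 q2 r2 s2) := fun k =>
    edge273 F X m0 m2 n1.ge d2 d1 d21 k.1 k.2 fun x hx => (u0 x hx).2
  have e12 : ¬ (G273 T y1 y2 p q r s ∧ G273 T y2 y1 p2 q2 r2 s2) := fun k =>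
    edge273 F X m1 m2 nV.ge d21 d1' d2 k.1 k.2 fun x hx => (u1 x hx).2
  -- the same type at both ends
  have key : ∀ {V y : ℂ} {a b c d p q r s : Fin 6}, DPt T V a b c d → DPt T y p q r s →
      (T V ∩ T y).ncard = 2 → (T y ∩ T V).ncard = 2 →
      ¬ (G273 T V y a b c d ∧ G273 T y V p q r s) →
      (Pu273 T V y a b c d ↔ ¬ Pu273 T y V p q r s) := by
    intro V y a b c d p q r s hV hy k1 k2 k3
    constructor
    · intro k4 k5
      exact k3 ⟨pu_pu273 h hV hy k1 k5, pu_pu273 h hy hV k2 k4⟩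
    · intro k4
      by_contra k5
      exact k3 ⟨(g_or273 h hV k1).resolve_right k5, (g_or273 h hy k2).resolve_right k4⟩
  have k01 := key hV h1 c01 c10 e01
  have k02 := key hV h2 c02 c20 e02
  have k12 := key h1 h2 c12 c21 e12
  -- purity of a vertex
  have t0 : Pu273 T V y1 a b c d ↔ Pu273 T V y2 a b c d :=
    ⟨pu_tr273 hV c02 fun x hx => (u1 x hx).2, pu_tr273 hV c01 fun x hx => (u2 x hx).2⟩
  have t1 : Pu273 T y1 V p q r s ↔ Pu273 T y1 y2 p q r s :=
    ⟨pu_tr273 h1 c12 fun x hx => (u0 x hx).2, pu_tr273 h1 c10 fun x hx => (u2 x hx).1⟩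
  have t2 : Pu273 T y2 V p2 q2 r2 s2 ↔ Pu273 T y2 y1 p2 q2 r2 s2 :=
    ⟨pu_tr273 h2 c21 fun x hx => (u0 x hx).1, pu_tr273 h2 c20 fun x hx => (u1 x hx).1⟩
  exact parity273 k01 k02 k12 t0 t1 t2

/-- **row T** -/
theorem rowTri273 (F : FlipE273) (hH : RowHarm98) : RowTri98 := by
  intro U T X V a b c d e f M y1 y2 d1 d2 d12 k1 k2
  rcases X.df.harm_or k1 with ⟨A, hA⟩ | ⟨p, q, r, s, h1⟩
  · exact hH U T X V a b c d e f M y1 d1 A hA
  rcases X.df.harm_or k2 with ⟨A, hA⟩ | ⟨p2, q2, r2, s2, h2⟩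
  · exact hH U T X V a b c d e f M y2 d2 A hA
  exact tri273 F X M d1 d2 d12 h1 h2

end Vale.Agent.P032.H273
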